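import Vale.Agent.P032.S5.H767.RawT
import Vale.Agent.P032.Words.H324.Pos

/-!
# P032: legal selections on the circles of several four coloured centres

Positions `(i, k)`: the point `pt (cen i) (u + k)` of the circle of the centre `i`.  Two positions of
the same circle at 60 degrees, and the positions `(i, k)`, `(j, k)` of two centres at distance one,
are at distance one for all `u`.  For a dense set of `u` no two such positions have a common colour,
so at every time there is a legal selection of letters.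
-/

open Set Filter Topology Metric

noncomputable section

namespace Vale.Agent.P032.S5.H724

open Vale.Agent.P032.Six Vale.Agent.P032.S5.H767 Vale.Agent.P032.Words

variable {U : Fin 6 → Set ℂ} {T : ℂ → Set (Fin 6)}

/-- a moving pair of points at distance one, the first on the circle about `z` -/
theorem dense_pair (h : Irr U T) {z : ℂ} {s : ℝ} {Q : ℝ → ℂ} (hQ : Continuous Q)
    (hd : ∀ u, dist (pt z (u + s)) (Q u) = 1)
    (hN : Dense {u | Q u ≠ z ∧ Q u + z ≠ 2 * pt z (u + s)}) :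
    IsOpen {u | Disjoint (T (pt z (u + s))) (T (Q u))} ∧
      Dense {u | Disjoint (T (pt z (u + s))) (T (Q u))} := by
  have hP : Continuous fun u : ℝ => pt z (u + s) := (continuous_pt z).comp (by fun_prop)
  have hcl : ∀ i : Fin 6, IsClosed {u : ℝ | i ∈ T (pt z (u + s)) ∧ i ∈ T (Q u)} := fun i =>
    ((h.closed i).preimage hP).inter ((h.closed i).preimage hQ)
  have heq : {u | Disjoint (T (pt z (u + s))) (T (Q u))} =
      ⋂ i : Fin 6, {u : ℝ | i ∈ T (pt z (u + s)) ∧ i ∈ T (Q u)}ᶜ := by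
    ext u
    simp only [mem_iInter, mem_compl_iff, mem_ofPred_eq, Set.disjoint_left, not_and]
  rw [heq]
  refine ⟨isOpen_iInter_of_finite fun i => (hcl i).isOpen_compl,
    dense_iInter_of_isOpen (fun i => (hcl i).isOpen_compl) fun i => ?_⟩
  rw [← interior_eq_empty_iff_dense_compl]
  by_contra hne
  obtain ⟨u, hu, hu1, hu2⟩ := hN.inter_open_nonempty _ isOpen_interior
    (Set.nonempty_iff_ne_empty.2 hne)
  have hi : u ∈ {u : ℝ | i ∈ T (pt z (u + s)) ∧ i ∈ T (Q u)} := interior_subset hu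
  have h1 : ∀ᶠ v in 𝓝 (u + s), i ∈ T (pt z v) := by
    have hc : Tendsto (fun v : ℝ => v - s) (𝓝 (u + s)) (𝓝 u) := by
      have : Continuous fun v : ℝ => v - s := by fun_prop
      have h2 := this.tendsto (u + s)
      rwa [add_sub_cancel_right] at h2
    filter_upwards [hc.eventually (isOpen_interior.mem_nhds hu)] with v hv
    have := (interior_subset hv).1
    rwa [sub_add_cancel] at this
  rcases h.mx.partner_line (dist_pt z (u + s)) ((ev_circle z h1).mono fun q hq => h.sub q hq)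
    (hd u) (h.sub _ hi.2) with h3 | h3
  · exact hu1 h3
  · exact hu2 h3

/-- neighbours on one circle -/
theorem dense_next (h : Irr U T) (z : ℂ) (s : ℝ) :
    IsOpen {u | Disjoint (T (pt z (u + s))) (T (pt z (u + s + 1)))} ∧
      Dense {u | Disjoint (T (pt z (u + s))) (T (pt z (u + s + 1)))} := by
  refine dense_pair h (Q := fun u => pt z (u + s + 1)) ((continuous_pt z).comp (by fun_prop))
    (fun u => dist_pt_one z (u + s)) ?_
  have : {u : ℝ | pt z (u + s + 1) ≠ z ∧ pt z (u + s + 1) + z ≠ 2 * pt z (u + s)} = univ := by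
    ext u
    simp only [mem_ofPred_eq, mem_univ, iff_true]
    obtain ⟨h1, h2⟩ := tri (dist_pt z (u + s)) (dist_pt z (u + s + 1))
    exact ⟨fun h3 => h1 h3.symm, fun h3 => h2 (by rw [← h3]; ring)⟩
  rw [this]
  exact dense_univ

/-- the times at which a point of the circle is different from a given point are dense -/
theorem dense_ne (z w : ℂ) (s : ℝ) : IsOpen {u : ℝ | pt z (u + s) ≠ w} ∧
    Dense {u : ℝ | pt z (u + s) ≠ w} := by
  have hP : Continuous fun u : ℝ => pt z (u + s) := (continuous_pt z).comp (by fun_prop)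
  refine ⟨isOpen_ne.preimage hP, ?_⟩
  have : {u : ℝ | pt z (u + s) ≠ w} = {u : ℝ | pt z (u + s) = w}ᶜ := rfl
  rw [this]
  refine Set.Countable.dense_compl ℝ ?_
  by_cases hne : ∃ u0 : ℝ, pt z (u0 + s) = w
  · obtain ⟨u0, hu0⟩ := hne
    refine (countable_range fun n : ℤ => u0 + 6 * (n : ℝ)).mono ?_
    intro u hu
    have hu : pt z (u + s) = w := hu
    have h1 : cis ((u + s) * (Real.pi / 3)) = cis ((u0 + s) * (Real.pi / 3)) := by
      have h2 := hu.trans hu0.symm
      unfold pt at h2; exact add_left_cancel h2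
    unfold cis at h1
    obtain ⟨n, hn⟩ := Complex.exp_eq_exp_iff_exists_int.1 h1
    refine ⟨n, ?_⟩
    have h2 := congrArg Complex.im hn
    simp at h2
    have hpi := Real.pi_pos
    have h4 : (u + s) * (Real.pi / 3) = (u0 + s + 6 * n) * (Real.pi / 3) := by
      rw [h2]; ring
    have h5 := mul_right_cancel₀ (show Real.pi / 3 ≠ 0 by positivity) h4
    show u0 + 6 * (n : ℝ) = u
    linarith
  · push Not at hne
    have : {u : ℝ | pt z (u + s) = w} = ∅ := by
      ext u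
      simp only [mem_ofPred_eq, mem_empty_iff_false, iff_false]
      exact hne u
    rw [this]
    exact countable_empty

/-- parallel radii of two centres at distance one -/
theorem dense_prism (h : Irr U T) {z v : ℂ} (hzv : dist z v = 1) (s : ℝ) :
    IsOpen {u | Disjoint (T (pt z (u + s))) (T (pt v (u + s)))} ∧
      Dense {u | Disjoint (T (pt z (u + s))) (T (pt v (u + s)))} := by
  have hpt : ∀ u, pt v u = pt z u + (v - z) := fun u => by unfold pt; ring
  refine dense_pair h (Q := fun u => pt v (u + s)) ((continuous_pt v).comp (by fun_prop))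
    (fun u => ?_) ?_
  · rw [hpt, dist_eq_norm, ← hzv, dist_eq_norm]
    congr 1; ring
  · have h1 := dense_ne z (2 * z - v) s
    have h2 := dense_ne z v s
    refine (h1.2.inter_of_isOpen_left h2.2 h1.1).mono ?_
    rintro u ⟨k1, k2⟩
    have k1 : pt z (u + s) ≠ 2 * z - v := k1
    have k2 : pt z (u + s) ≠ v := k2
    refine ⟨fun h3 => k1 ?_, fun h3 => k2 ?_⟩
    · rw [hpt] at h3; linear_combination h3
    · rw [hpt] at h3; linear_combination -h3

/-- `A` and `C` antipodal: closed, without interior (no hypothesis on the number of colours) -/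
theorem dense_anti {z : ℂ} {a b c d e f : Fin 6} (C : Ctr U T z a b c d e f) (s : ℝ) :
    IsOpen {u : ℝ | ¬ (u + s ∈ Xs T z a b c d e f 2 ∧ u + s + 3 ∈ Xs T z a b c d e f 3)} ∧
    Dense {u : ℝ | ¬ (u + s ∈ Xs T z a b c d e f 2 ∧ u + s + 3 ∈ Xs T z a b c d e f 3)} := by
  have hcl : IsClosed {u : ℝ | u + s ∈ Xs T z a b c d e f 2 ∧ u + s + 3 ∈ Xs T z a b c d e f 3} :=
    ((C.x_closed 2).preimage (by fun_prop : Continuous fun u : ℝ => u + s)).inter
      ((C.x_closed 3).preimage (by fun_prop : Continuous fun u : ℝ => u + s + 3))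
  refine ⟨hcl.isOpen_compl, ?_⟩
  show Dense {u : ℝ | u + s ∈ Xs T z a b c d e f 2 ∧ u + s + 3 ∈ Xs T z a b c d e f 3}ᶜ
  rw [← interior_eq_empty_iff_dense_compl]
  by_contra hne
  obtain ⟨u, hu⟩ := Set.nonempty_iff_ne_empty.2 hne
  have h1 : ∀ᶠ v in 𝓝 (u + s), pt z v ∈ closure (Ex T z {a, b}) ∧
      2 * z - pt z v ∈ closure (Ex T z {c, d}) := by
    have hc : Tendsto (fun v : ℝ => v - s) (𝓝 (u + s)) (𝓝 u) := by
      have : Continuous fun v : ℝ => v - s := by fun_prop
      have h2 := this.tendsto (u + s)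
      rwa [add_sub_cancel_right] at h2
    filter_upwards [hc.eventually (isOpen_interior.mem_nhds hu)] with v hv
    have h3 := interior_subset hv
    obtain ⟨k1, k2⟩ := h3
    rw [sub_add_cancel] at k1 k2
    refine ⟨k1, ?_⟩
    have k3 : pt z (v + 3) ∈ closure (Ex T z {c, d}) := k2
    rwa [pt_three] at k3
  have h2 : ∀ᶠ q in 𝓝[sphere z 1] (pt z (u + s)), q ∈ closure (Ex T z {a, b}) ∧
      2 * z - q ∈ closure (Ex T z {c, d}) :=
    ev_circle z (p := fun q => q ∈ closure (Ex T z {a, b}) ∧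
      2 * z - q ∈ closure (Ex T z {c, d})) h1
  obtain ⟨N, hN, hsub⟩ := mem_nhdsWithin_iff_exists_mem_nhds_inter.1 h2
  have hu0 : pt z (u + s) ∈ closure (Ex T z {a, b}) := (interior_subset hu).1
  obtain ⟨q, hqN, hq⟩ := mem_closure_iff_nhds.1 hu0 N hN
  have hq1 : dist q z = 1 := hq.1
  obtain ⟨-, k2⟩ := hsub ⟨hqN, hq1⟩
  have hTq := ex_self hq
  refine anti C.irr hq1 ?_ (P := {c, d}) (fun i hi => ?_) k2
  · rw [hTq]
    exact (Set.ncard_insert_le a {b}).trans (by rw [Set.ncard_singleton]; norm_num)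
  · rw [C.pal] at hi
    rw [hTq]
    rcases hi with rfl | rfl | hi
    · exact Or.inl (Or.inl rfl)
    · exact Or.inl (Or.inr rfl)
    · exact Or.inr hi

/-- several four coloured centres with names of the colours -/
structure Fam (U : Fin 6 → Set ℂ) (T : ℂ → Set (Fin 6)) (σ : Type*) where
  /-- the centres -/
  cen : σ → ℂ
  /-- the names `a, b, c, d, e, f` -/
  nm : σ → Fin 6 → Fin 6
  ctr : ∀ s, Ctr U T (cen s) (nm s 0) (nm s 1) (nm s 2) (nm s 3) (nm s 4) (nm s 5)

namespace Fam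

variable {σ : Type*} (F : Fam U T σ)

/-- the letter sets -/
def X (s : σ) (l : Fin 4) : Set ℝ :=
  Xs T (F.cen s) (F.nm s 0) (F.nm s 1) (F.nm s 2) (F.nm s 3) (F.nm s 4) (F.nm s 5) l

/-- the colours of a letter -/
def cl (s : σ) (l : Fin 4) : Set (Fin 6) :=
  col (F.nm s 0) (F.nm s 1) (F.nm s 2) (F.nm s 3) (F.nm s 4) (F.nm s 5) l

/-- the pairwise legality: neighbours differ, `A` and `C` are not antipodal, letters at parallel radii
of centres at distance one are disjoint -/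
def R (p q : Fin 6 × σ) (x y : Fin 4) : Prop :=
  (p.2 = q.2 → q.1 = p.1 + 1 ∨ p.1 = q.1 + 1 → x ≠ y) ∧
  (p.2 = q.2 → q.1 = p.1 + 3 → ¬ (x = 2 ∧ y = 3) ∧ ¬ (x = 3 ∧ y = 2)) ∧
  (p.1 = q.1 → dist (F.cen p.2) (F.cen q.2) = 1 → Disjoint (F.cl p.2 x) (F.cl q.2 y))

theorem x_closed (s : σ) (l : Fin 4) : IsClosed (F.X s l) := (F.ctr s).x_closed l

theorem x_per (s : σ) (l : Fin 4) (u : ℝ) : u + 6 ∈ F.X s l ↔ u ∈ F.X s l := (F.ctr s).x_per l u

theorem x_cover (s : σ) (u : ℝ) : ∃ l, u ∈ F.X s l := (F.ctr s).x_cover u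

theorem cl_sub {s : σ} {u : ℝ} {l : Fin 4} (h : u ∈ F.X s l) : F.cl s l ⊆ T (pt (F.cen s) u) :=
  Lt_col (F.ctr s).irr h

theorem cl_nonempty (s : σ) (l : Fin 4) : (F.cl s l).Nonempty := col_nonempty l

/-- `p.1 + 1` in the angle coordinate -/
theorem pt_succ (z : ℂ) (u : ℝ) (k : Fin 6) :
    pt z (u + ((k + 1).val : ℝ)) = pt z (u + (k.val : ℝ) + 1) := by
  by_cases hk : k = 5
  · subst hk
    have h1 : ((5 : Fin 6) + 1).val = 0 := rfl
    have h2 : (5 : Fin 6).val = 5 := rfl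
    rw [h1, h2]
    have : u + ((5 : ℕ) : ℝ) + 1 = (u + ((0 : ℕ) : ℝ)) + 6 := by push_cast; ring
    rw [this, pt_six]
  · have h1 : (k + 1).val = k.val + 1 := by
      have : ∀ k : Fin 6, k ≠ 5 → (k + 1).val = k.val + 1 := by decide
      exact this k hk
    rw [h1]
    congr 1
    push_cast
    ring

theorem pt_add_three (z : ℂ) (u : ℝ) (k : Fin 6) :
    pt z (u + ((k + 3).val : ℝ)) = pt z (u + (k.val : ℝ) + 3) := by
  have e : k + 3 = k + 1 + 1 + 1 := by
    have : ∀ k : Fin 6, k + 3 = k + 1 + 1 + 1 := by decide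
    exact this k
  have h1 : ∀ (v : ℝ) (j : Fin 6), pt z (v + ((j + 1).val : ℝ)) = pt z (v + 1 + (j.val : ℝ)) := by
    intro v j
    rw [pt_succ]; congr 1; ring
  rw [e, h1, h1, h1]
  congr 1; ring

/-- the generic times -/
theorem dense_good [Finite σ] : Dense {u : ℝ |
    (∀ (s : σ) (k : Fin 6), Disjoint (T (pt (F.cen s) (u + (k.val : ℝ))))
      (T (pt (F.cen s) (u + (k.val : ℝ) + 1)))) ∧
    (∀ (s t : σ) (k : Fin 6), dist (F.cen s) (F.cen t) = 1 →
      Disjoint (T (pt (F.cen s) (u + (k.val : ℝ)))) (T (pt (F.cen t) (u + (k.val : ℝ))))) ∧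
    ∀ (s : σ) (k : Fin 6), ¬ (u + (k.val : ℝ) ∈ F.X s 2 ∧ u + (k.val : ℝ) + 3 ∈ F.X s 3)} := by
  have e : {u : ℝ |
    (∀ (s : σ) (k : Fin 6), Disjoint (T (pt (F.cen s) (u + (k.val : ℝ))))
      (T (pt (F.cen s) (u + (k.val : ℝ) + 1)))) ∧
    (∀ (s t : σ) (k : Fin 6), dist (F.cen s) (F.cen t) = 1 →
      Disjoint (T (pt (F.cen s) (u + (k.val : ℝ)))) (T (pt (F.cen t) (u + (k.val : ℝ))))) ∧
    ∀ (s : σ) (k : Fin 6), ¬ (u + (k.val : ℝ) ∈ F.X s 2 ∧ u + (k.val : ℝ) + 3 ∈ F.X s 3)} =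
    (⋂ p : σ × Fin 6, {u : ℝ | Disjoint (T (pt (F.cen p.1) (u + (p.2.val : ℝ))))
      (T (pt (F.cen p.1) (u + (p.2.val : ℝ) + 1)))}) ∩
    ((⋂ p : σ × σ × Fin 6, {u : ℝ | dist (F.cen p.1) (F.cen p.2.1) = 1 →
      Disjoint (T (pt (F.cen p.1) (u + (p.2.2.val : ℝ))))
        (T (pt (F.cen p.2.1) (u + (p.2.2.val : ℝ))))}) ∩
    ⋂ p : σ × Fin 6, {u : ℝ | ¬ (u + (p.2.val : ℝ) ∈ F.X p.1 2 ∧
      u + (p.2.val : ℝ) + 3 ∈ F.X p.1 3)}) := by
    ext u
    simp only [mem_inter_iff, mem_iInter, mem_ofPred_eq, Prod.forall]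
  rw [e]
  have h1 : ∀ p : σ × Fin 6, IsOpen {u : ℝ | Disjoint (T (pt (F.cen p.1) (u + (p.2.val : ℝ))))
      (T (pt (F.cen p.1) (u + (p.2.val : ℝ) + 1)))} ∧
      Dense {u : ℝ | Disjoint (T (pt (F.cen p.1) (u + (p.2.val : ℝ))))
      (T (pt (F.cen p.1) (u + (p.2.val : ℝ) + 1)))} := fun p =>
    dense_next (F.ctr p.1).irr (F.cen p.1) _
  have h2 : ∀ p : σ × σ × Fin 6, IsOpen {u : ℝ | dist (F.cen p.1) (F.cen p.2.1) = 1 →
      Disjoint (T (pt (F.cen p.1) (u + (p.2.2.val : ℝ))))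
        (T (pt (F.cen p.2.1) (u + (p.2.2.val : ℝ))))} ∧
      Dense {u : ℝ | dist (F.cen p.1) (F.cen p.2.1) = 1 →
      Disjoint (T (pt (F.cen p.1) (u + (p.2.2.val : ℝ))))
        (T (pt (F.cen p.2.1) (u + (p.2.2.val : ℝ))))} := by
    intro p
    by_cases hd : dist (F.cen p.1) (F.cen p.2.1) = 1
    · have := dense_prism (F.ctr p.1).irr hd (p.2.2.val : ℝ)
      simpa only [hd, forall_const] using this
    · have e : {u : ℝ | dist (F.cen p.1) (F.cen p.2.1) = 1 →
          Disjoint (T (pt (F.cen p.1) (u + (p.2.2.val : ℝ))))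
          (T (pt (F.cen p.2.1) (u + (p.2.2.val : ℝ))))} = univ := by
        ext u
        simp only [mem_ofPred_eq, mem_univ, iff_true]
        exact fun h => absurd h hd
      rw [e]
      exact ⟨isOpen_univ, dense_univ⟩
  have h3 : ∀ p : σ × Fin 6, IsOpen {u : ℝ | ¬ (u + (p.2.val : ℝ) ∈ F.X p.1 2 ∧
      u + (p.2.val : ℝ) + 3 ∈ F.X p.1 3)} ∧ Dense {u : ℝ | ¬ (u + (p.2.val : ℝ) ∈ F.X p.1 2 ∧
      u + (p.2.val : ℝ) + 3 ∈ F.X p.1 3)} := fun p => dense_anti (F.ctr p.1) _
  have d1 := dense_iInter_of_isOpen (fun p => (h1 p).1) fun p => (h1 p).2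
  have d2 := dense_iInter_of_isOpen (fun p => (h2 p).1) fun p => (h2 p).2
  have d3 := dense_iInter_of_isOpen (fun p => (h3 p).1) fun p => (h3 p).2
  have o1 : IsOpen _ := isOpen_iInter_of_finite fun p => (h1 p).1
  have o2 : IsOpen _ := isOpen_iInter_of_finite fun p => (h2 p).1
  exact d1.inter_of_isOpen_left (d2.inter_of_isOpen_left d3 o2) o1

/-- **A legal selection at every time**, no hypothesis on the number of colours. -/
theorem exists_sel [Finite σ] (u : ℝ) : ∃ h, Scc.Sel F.R (H324.PalX F.X u) h := by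
  obtain ⟨v, ⟨g1, g2, g3⟩, hv⟩ := F.dense_good.inter_nhds_nonempty
    (H324.palX_near (X := F.X) F.x_closed u)
  choose h hh using fun p : Fin 6 × σ => F.x_cover p.2 (v + (p.1.val : ℝ))
  refine ⟨h, fun p => hv p (hh p), fun p q => ⟨fun hpq hk => ?_, fun hpq hk => ?_, fun hk hd => ?_⟩⟩
  · -- neighbours
    have key : ∀ (s : σ) (k : Fin 6) (l : Fin 4), v + (k.val : ℝ) ∈ F.X s l →
        v + ((k + 1).val : ℝ) ∈ F.X s l → False := by
      intro s k l k1 k2
      obtain ⟨i, hi⟩ := F.cl_nonempty s l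
      have k3 := F.cl_sub k2 hi
      rw [pt_succ] at k3
      exact Set.disjoint_left.1 (g1 s k) (F.cl_sub k1 hi) k3
    obtain ⟨k, s⟩ := p
    obtain ⟨k', s'⟩ := q
    obtain rfl : s = s' := hpq
    intro he
    rcases hk with hk | hk
    · obtain rfl : k' = k + 1 := hk
      exact key s k _ (hh (k, s)) (he ▸ hh (k + 1, s))
    · obtain rfl : k = k' + 1 := hk
      exact key s k' _ (hh (k', s)) (he ▸ hh (k' + 1, s))
  · obtain ⟨k, s⟩ := p
    obtain ⟨k', s'⟩ := q
    obtain rfl : s = s' := hpq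
    obtain rfl : k' = k + 3 := hk
    have k1 := hh (k, s)
    have k2 := hh (k + 3, s)
    constructor
    · rintro ⟨e1, e2⟩
      rw [e1] at k1
      rw [e2] at k2
      refine g3 s k ⟨k1, ?_⟩
      have k3 : pt (F.cen s) (v + ((k + 3).val : ℝ)) ∈ Lt T (F.cen s) (F.nm s 0) (F.nm s 1)
        (F.nm s 2) (F.nm s 3) (F.nm s 4) (F.nm s 5) 3 := k2
      rw [pt_add_three] at k3
      exact k3
    · rintro ⟨e1, e2⟩
      rw [e1] at k1
      rw [e2] at k2
      refine g3 s (k + 3) ⟨k2, ?_⟩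
      have k3 : pt (F.cen s) (v + (k.val : ℝ)) ∈ Lt T (F.cen s) (F.nm s 0) (F.nm s 1)
        (F.nm s 2) (F.nm s 3) (F.nm s 4) (F.nm s 5) 3 := k1
      have e3 : k = k + 3 + 3 := by
        have : ∀ k : Fin 6, k = k + 3 + 3 := by decide
        exact this k
      rw [e3, pt_add_three] at k3
      exact k3
  · obtain ⟨k, s⟩ := p
    obtain ⟨k', t⟩ := q
    obtain rfl : k = k' := hk
    exact (g2 s t k hd).mono (F.cl_sub (hh (k, s))) (F.cl_sub (hh (k, t)))

/-- **The word of several centres.** -/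
theorem wd [Finite σ] : Scc.Wd F.R (H324.PalX F.X) := H324.wd_of F.x_closed F.exists_sel

end Fam

end Vale.Agent.P032.S5.H724
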