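import Vale.Agent.P032.S5.H724.TabE
import Vale.Agent.P032.S5.H724.Ex

/-!
# P032: the moves of the two circles of a beta pair

`wB h` is the word of joint letters of a selection `h` on the two circles.  From the options of the
twelve positions (`Geo`) and strong connectedness: one step `StepB`.
-/

namespace Vale.Agent.P032.S5.H724

open Tab
open Vale.Agent.P032.Words.Trie (zl vl jn nb oo LegB Lv FitW StepB wl)
open Vale.Agent.P032.Six Vale.Agent.P032.S5.H767 Vale.Agent.P032.Words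

/-- the letters of the first circle as masks -/
def lz : Fin 4 → ℕ := ![16, 32, 3, 12]

/-- the letters of the second circle as masks -/
def lv : Fin 4 → ℕ := ![8, 32, 5, 18]

/-- joint letter -/
def jl (x y : Fin 4) : ℕ := jn x.val y.val

/-- the word of a selection -/
def wB (h : Fin 6 × Fin 2 → Fin 4) (k : ℕ) : ℕ :=
  if hk : k < 6 then jl (h (⟨k, hk⟩, 0)) (h (⟨k, hk⟩, 1)) else 0

theorem wB_fin (h : Fin 6 × Fin 2 → Fin 4) (k : Fin 6) : wB h k.val = jl (h (k, 0)) (h (k, 1)) := by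
  unfold wB
  rw [dif_pos k.isLt]

theorem jl_facts : ∀ x y : Fin 4, Nat.land (lz x) (lv y) = 0 →
    jm (lz x) (lv y) = jl x y ∧ zl (jl x y) = x.val ∧ vl (jl x y) = y.val ∧ jl x y < 10 := by
  decide

theorem nb_facts : ∀ x y x' y' : Fin 4, Nat.land (lz x) (lv y) = 0 → Nat.land (lz x') (lv y') = 0 →
    x ≠ x' → y ≠ y' → nb (jl x y) (jl x' y') = true := by
  decide +kernel

theorem op_facts : ∀ x y x' y' : Fin 4, Nat.land (lz x) (lv y) = 0 → Nat.land (lz x') (lv y') = 0 →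
    ¬ (x = 2 ∧ x' = 3) → ¬ (x = 3 ∧ x' = 2) → ¬ (y = 2 ∧ y' = 3) → ¬ (y = 3 ∧ y' = 2) →
    Words.Trie.op (jl x y) (jl x' y') = true := by
  decide +kernel

theorem lz_inj : ∀ x y : Fin 4, lz x = lz y → x = y := by decide

theorem lv_inj : ∀ x y : Fin 4, lv x = lv y → x = y := by decide

/-- one letter changes, not `A|C` -/
theorem al_facts : ∀ x y x' y' : Fin 4, Nat.land (lz x) (lv y) = 0 → Nat.land (lz x') (lv y') = 0 →
    (x = x' ∧ y ≠ y' ∧ ¬ (y = 2 ∧ y' = 3) ∧ ¬ (y = 3 ∧ y' = 2) ∨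
      y = y' ∧ x ≠ x' ∧ ¬ (x = 2 ∧ x' = 3) ∧ ¬ (x = 3 ∧ x' = 2)) →
    Words.Trie.al (jl x y) (jl x' y') = true := by
  decide +kernel

/-! ### Fit -/

theorem contains_of_mem {x : ℕ} {l : List ℕ} (h : mem x l = true) : l.contains x = true := by
  rw [mem_iff] at h
  simpa using h

theorem fit_of_fit1 : ∀ {L : Lv} {x y : ℕ}, fit1 L x y = true → L.Fit x y
  | .s l, x, y, h => by
    unfold fit1 at h
    rw [Bool.and_eq_true] at h
    exact ⟨Nat.eq_of_beq_eq_true h.1, contains_of_mem h.2⟩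
  | .c p q, x, y, h => by
    unfold fit1 at h
    rw [Bool.and_eq_true] at h
    exact ⟨Nat.eq_of_beq_eq_true h.1, Nat.eq_of_beq_eq_true h.2⟩

theorem fitW_of_fitB : ∀ {L : List Lv} {w w' : List ℕ}, fitB L w w' = true → FitW L w w'
  | [], [], [], _ => trivial
  | v :: L, x :: w, y :: w', h => by
    unfold fitB at h
    rw [Bool.and_eq_true] at h
    exact ⟨fit_of_fit1 h.1, fitW_of_fitB h.2⟩
  | [], [], _ :: _, h => by simp [fitB] at h
  | [], _ :: _, _, h => by simp [fitB] at h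
  | _ :: _, [], w', h => by cases w' <;> simp [fitB] at h
  | _ :: _, _ :: _, [], h => by simp [fitB] at h

/-! ### Options -/

/-- the second half of `okT` -/
def okP (p : Op) (cen k1 k2 k3 : ℕ) : Bool :=
  Nat.beq p.2.2 0 || (Vk p.2.2 cen k1 k2 && (Vk p.2.2 cen k1 k3 && (Vk p.2.2 cen k2 k1 &&
    (Vk p.2.2 cen k2 k3 && (Vk p.2.2 cen k3 k1 && (Vk p.2.2 cen k3 k2 &&
    (LBk p.2.2 k1 k2 && (LBk p.2.2 k1 k3 && LBk p.2.2 k2 k3))))))))

theorem okT_of {p : Op} {cen k1 k2 k3 : ℕ} (h1 : p.1 = p.2.1 ∨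
    Nat.land (Nat.lor k1 (Nat.lor k2 k3)) 192 = 192) (h2 : okP p cen k1 k2 k3 = true) :
    okT p cen k1 k2 k3 = true := by
  unfold okT
  rw [Bool.and_eq_true]
  refine ⟨?_, h2⟩
  rw [Bool.or_eq_true]
  rcases h1 with h1 | h1
  · left; rw [h1]; exact Nat.beq_refl _
  · right; rw [h1]; exact Nat.beq_refl _

/-- the options of the twelve positions: what does not depend on strong connectedness -/
structure Geo (o : Fin 6 → Op × Op) : Prop where
  mz : ∀ k, (o k).1 ∈ oz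
  mv : ∀ k, (o k).2 ∈ ov
  ep : ∀ k, E (o k).1 (o k).2 = true
  ep' : ∀ k, E (o k).2 (o k).1 = true
  ez : ∀ k, E (o k).1 (o (k + 1)).1 = true
  ez' : ∀ k, E (o (k + 1)).1 (o k).1 = true
  ev : ∀ k, E (o k).2 (o (k + 1)).2 = true
  ev' : ∀ k, E (o (k + 1)).2 (o k).2 = true
  pz : ∀ k, okP (o k).1 15 (sm (o k).1 (o (k - 1)).1) (sm (o k).1 (o (k + 1)).1)
    (sm (o k).1 (o k).2) = true
  pz' : ∀ k, okP (o k).1 15 (sm (o k).1 (o (k + 1)).1) (sm (o k).1 (o (k - 1)).1)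
    (sm (o k).1 (o k).2) = true
  pv : ∀ k, okP (o k).2 23 (sm (o k).2 (o (k - 1)).2) (sm (o k).2 (o (k + 1)).2)
    (sm (o k).2 (o k).1) = true
  pv' : ∀ k, okP (o k).2 23 (sm (o k).2 (o (k + 1)).2) (sm (o k).2 (o (k - 1)).2)
    (sm (o k).2 (o k).1) = true

/-- the bits 6 and 7 of the codes -/
def chkB (l l' : List Op) : Bool := l.all fun p => l'.all fun q => !(E p q) ||
  ((Nat.beq (Nat.land q.1 p.2.1) 0 || Nat.beq (Nat.land (sm p q) 64) 64) &&
   (Nat.beq (Nat.land p.1 q.2.1) 0 || Nat.beq (Nat.land (sm p q) 128) 128))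

set_option maxRecDepth 100000 in
theorem chkB_zz : chkB oz oz = true := by decide +kernel

set_option maxRecDepth 100000 in
theorem chkB_zv : chkB oz ov = true := by decide +kernel

set_option maxRecDepth 100000 in
theorem chkB_vz : chkB ov oz = true := by decide +kernel

set_option maxRecDepth 100000 in
theorem chkB_vv : chkB ov ov = true := by decide +kernel

theorem chkB_spec {l l' : List Op} (h : chkB l l' = true) {p q : Op} (hp : p ∈ l) (hq : q ∈ l')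
    (he : E p q = true) : (Nat.land q.1 p.2.1 ≠ 0 → (sm p q) &&& 64 = 64) ∧
      (Nat.land p.1 q.2.1 ≠ 0 → (sm p q) &&& 128 = 128) := by
  have h1 := List.all_eq_true.1 (List.all_eq_true.1 h p hp) q hq
  rw [he, Bool.not_true, Bool.false_or, Bool.and_eq_true, Bool.or_eq_true, Bool.or_eq_true] at h1
  obtain ⟨h1, h2⟩ := h1
  constructor
  · intro hn
    rcases h1 with h1 | h1
    · exact absurd (Nat.eq_of_beq_eq_true h1) hn
    · exact Nat.eq_of_beq_eq_true h1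
  · intro hn
    rcases h2 with h2 | h2
    · exact absurd (Nat.eq_of_beq_eq_true h2) hn
    · exact Nat.eq_of_beq_eq_true h2

theorem bit_of {k i : ℕ} (h : k &&& 2 ^ i = 2 ^ i) : k.testBit i = true := by
  have h1 := congrArg (fun n => n.testBit i) h
  simpa [Nat.testBit_and, Nat.testBit_two_pow_self] using h1

theorem codes192 {k1 k2 k3 : ℕ} (h6 : k1 &&& 64 = 64 ∨ k2 &&& 64 = 64 ∨ k3 &&& 64 = 64)
    (h7 : k1 &&& 128 = 128 ∨ k2 &&& 128 = 128 ∨ k3 &&& 128 = 128) :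
    Nat.land (Nat.lor k1 (Nat.lor k2 k3)) 192 = 192 := by
  show (k1 ||| (k2 ||| k3)) &&& 192 = 192
  have b6 : (k1 ||| (k2 ||| k3)).testBit 6 = true := by
    rw [Nat.testBit_or, Nat.testBit_or]
    rcases h6 with h | h | h <;> rw [bit_of (i := 6) h] <;> simp
  have b7 : (k1 ||| (k2 ||| k3)).testBit 7 = true := by
    rw [Nat.testBit_or, Nat.testBit_or]
    rcases h7 with h | h | h <;> rw [bit_of (i := 7) h] <;> simp
  refine Nat.eq_of_testBit_eq fun i => ?_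
  rw [Nat.testBit_and]
  by_cases hi : i < 8
  · interval_cases i
    all_goals first
      | (rw [b6]; rfl)
      | (rw [b7]; rfl)
      | (rw [show (192 : ℕ).testBit _ = false from rfl, Bool.and_false])
  · have : (192 : ℕ).testBit i = false := by
      refine Nat.testBit_eq_false_of_lt ?_
      calc 192 < 2 ^ 8 := by norm_num
        _ ≤ 2 ^ i := Nat.pow_le_pow_right (by norm_num) (by omega)
    rw [this, Bool.and_false]

/-! ### The two circles -/

section circles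

open Set Metric

noncomputable section

variable {U : Fin 6 → Set ℂ} {T : ℂ → Set (Fin 6)} {z v : ℂ} {a b c d e f : Fin 6}

/-- the two circles of a beta pair -/
def FB (C : Ctr U T z a b c d e f) (C' : Ctr U T v a c b e d f) : Fam U T (Fin 2) where
  cen := ![z, v]
  nm := ![![a, b, c, d, e, f], ![a, c, b, e, d, f]]
  ctr := by
    intro s
    fin_cases s
    exacts [C, C']

variable {C : Ctr U T z a b c d e f} {C' : Ctr U T v a c b e d f}

/-- the masks of a position -/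
def ms : Fin 2 → Fin 4 → ℕ := ![lz, lv]

theorem ms_ne : ∀ (s : Fin 2) (x : Fin 4), Nat.land (ms s x) (ms s x) ≠ 0 := by decide

theorem ms_comm (s t : Fin 2) (x y : Fin 4) : Nat.land (ms s x) (ms t y) = Nat.land (ms t y) (ms s x) :=
  Nat.land_comm _ _

/-- a common colour gives a common bit -/
theorem land_of_mem (hn : [a, b, c, d, e, f].Nodup) {x y : Fin 4} {i : Fin 6}
    (hx : i ∈ col a b c d e f x) (hy : i ∈ col a c b e d f y) : Nat.land (lz x) (lv y) ≠ 0 := by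
  simp only [List.nodup_cons, List.mem_cons, List.not_mem_nil, or_false, not_or, List.nodup_nil,
    and_true, not_false_eq_true] at hn
  obtain ⟨⟨ab, ac, ad, ae, af⟩, ⟨bc, bd, be, bf⟩, ⟨cd, ce, cf⟩, ⟨de, df⟩, ef⟩ := hn
  fin_cases x <;> fin_cases y <;>
    simp only [col, Fin.zero_eta, Fin.mk_one, Fin.reduceFinMk, Matrix.cons_val,
      Matrix.cons_val_zero, Matrix.cons_val_one, mem_singleton_iff, mem_insert_iff] at hx hy
  all_goals first
    | decide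
    | (exfalso; subst hx; first
        | (exact absurd hy (by assumption))
        | (exact absurd hy.symm (by assumption))
        | (rcases hy with h | h <;> first | exact absurd h (by assumption) | exact absurd h.symm (by assumption)))
    | (exfalso; subst hy; rcases hx with h | h <;>
        first | exact absurd h (by assumption) | exact absurd h.symm (by assumption))
    | (exfalso; rcases hx with h1 | h1 <;> subst h1 <;> rcases hy with h | h <;>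
        first | exact absurd h (by assumption) | exact absurd h.symm (by assumption))

/-- disjoint letters have disjoint masks -/
theorem land_of_disj {x y : Fin 4} (h : Disjoint (col a b c d e f x) (col a c b e d f y)) :
    Nat.land (lz x) (lv y) = 0 := by
  have k : ∀ i, ¬ (i ∈ col a b c d e f x ∧ i ∈ col a c b e d f y) := fun i hi =>
    Set.disjoint_left.1 h hi.1 hi.2
  have key : ∀ x y : Fin 4, Nat.land (lz x) (lv y) ≠ 0 →
      (x = 2 ∧ y = 2) ∨ (x = 2 ∧ y = 3) ∨ (x = 3 ∧ y = 2) ∨ (x = 3 ∧ y = 0) ∨ (x = 0 ∧ y = 3) ∨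
        (x = 1 ∧ y = 1) := by decide
  by_contra hne
  rcases key x y hne with ⟨rfl, rfl⟩ | ⟨rfl, rfl⟩ | ⟨rfl, rfl⟩ | ⟨rfl, rfl⟩ | ⟨rfl, rfl⟩ | ⟨rfl, rfl⟩
  · exact k a ⟨Or.inl rfl, Or.inl rfl⟩
  · exact k b ⟨Or.inr rfl, Or.inl rfl⟩
  · exact k c ⟨Or.inl rfl, Or.inr rfl⟩
  · exact k d ⟨Or.inr rfl, rfl⟩
  · exact k e ⟨rfl, Or.inr rfl⟩
  · exact k f ⟨rfl, rfl⟩

theorem FB_R (C : Ctr U T z a b c d e f) (C' : Ctr U T v a c b e d f) {p q : Fin 6 × Fin 2}
    {x y : Fin 4} : (FB C C').R p q x y ↔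
  (p.2 = q.2 → q.1 = p.1 + 1 ∨ p.1 = q.1 + 1 → x ≠ y) ∧
  (p.2 = q.2 → q.1 = p.1 + 3 → ¬ (x = 2 ∧ y = 3) ∧ ¬ (x = 3 ∧ y = 2)) ∧
  (p.1 = q.1 → dist ((![z, v] : Fin 2 → ℂ) p.2) ((![z, v] : Fin 2 → ℂ) q.2) = 1 →
    Disjoint ((FB C C').cl p.2 x) ((FB C C').cl q.2 y)) := Iff.rfl

theorem cl_zero (C : Ctr U T z a b c d e f) (C' : Ctr U T v a c b e d f) (x : Fin 4) :
    (FB C C').cl 0 x = col a b c d e f x := rfl

theorem cl_one (C : Ctr U T z a b c d e f) (C' : Ctr U T v a c b e d f) (x : Fin 4) :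
    (FB C C').cl 1 x = col a c b e d f x := rfl

/-- not disjoint gives a common bit -/
theorem land_of_ndisj (C : Ctr U T z a b c d e f) (C' : Ctr U T v a c b e d f) {s t : Fin 2}
    (hst : s ≠ t) {x y : Fin 4} (h : ¬ Disjoint ((FB C C').cl s x) ((FB C C').cl t y)) :
    Nat.land (ms s x) (ms t y) ≠ 0 := by
  obtain ⟨i, h1, h2⟩ := Set.not_disjoint_iff.1 h
  have h01 : ∀ s : Fin 2, s = 0 ∨ s = 1 := by decide
  have hs := h01 s
  have ht := h01 t
  rcases hs with rfl | rfl <;> rcases ht with rfl | rfl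
  · exact absurd rfl hst
  · exact land_of_mem C.nd h1 h2
  · rw [ms_comm]; exact land_of_mem C.nd h2 h1
  · exact absurd rfl hst

/-- the closed antipodal rule, `k + 3` -/
theorem anti_pal {F : Fam U T (Fin 2)} {u : ℝ} (h3 : ∀ (s : Fin 2) (k : Fin 6),
    (T (pt (F.cen s) (u + (k.val : ℝ)))).ncard ≤ 3) {s : Fin 2} {k : Fin 6} {x y : Fin 4}
    (hx : u + (k.val : ℝ) ∈ F.X s x) (hy : u + ((k + 3 : Fin 6).val : ℝ) ∈ F.X s y) :
    ¬ (x = 2 ∧ y = 3) ∧ ¬ (x = 3 ∧ y = 2) := by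
  have hy' : u + (k.val : ℝ) + 3 ∈ F.X s y := by
    have h1 : pt (F.cen s) (u + ((k + 3 : Fin 6).val : ℝ)) ∈ Lt T (F.cen s) (F.nm s 0) (F.nm s 1)
      (F.nm s 2) (F.nm s 3) (F.nm s 4) (F.nm s 5) y := hy
    rw [Fam.pt_add_three] at h1
    exact h1
  constructor
  · rintro ⟨rfl, rfl⟩
    exact (F.ctr s).x_anti (h3 s k) hx hy'
  · rintro ⟨rfl, rfl⟩
    exact (F.ctr s).x_anti' (h3 s k) hx hy'

theorem add3 (k : Fin 6) : k + 3 + 3 = k := by revert k; decide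

/-- what a requirement means -/
theorem req_cases (C : Ctr U T z a b c d e f) (C' : Ctr U T v a c b e d f) {u : ℝ}
    (h3 : ∀ (s : Fin 2) (k : Fin 6), (T (pt ((FB C C').cen s) (u + (k.val : ℝ)))).ncard ≤ 3)
    {h h' : Fin 6 × Fin 2 → Fin 4} (hs : Scc.Sel (FB C C').R (H324.PalX (FB C C').X u) h)
    (hs' : Scc.Sel (FB C C').R (H324.PalX (FB C C').X u) h') {p q : Fin 6 × Fin 2}
    (hr : Scc.Req (FB C C').R h h' q p) :
    (p.2 = q.2 ∧ (q.1 = p.1 + 1 ∨ p.1 = q.1 + 1) ∧ h p = h' q) ∨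
      (p.1 = q.1 ∧ p.2 ≠ q.2 ∧ Nat.land (ms p.2 (h p)) (ms q.2 (h' q)) ≠ 0) := by
  by_contra hcon
  rw [not_or] at hcon
  obtain ⟨hc1, hc2⟩ := hcon
  refine hr ⟨?_, ?_⟩
  · rw [FB_R]
    refine ⟨fun e1 e2 e3 => hc1 ⟨e1, e2, e3⟩, fun e1 e2 => ?_, fun e1 e2 => ?_⟩
    · have k1 := hs.1 p
      have k2 := hs'.1 q
      rw [H324.mem_palX] at k1 k2
      rw [e2, ← e1] at k2
      exact anti_pal h3 k1 k2
    · by_contra hd
      by_cases h2 : p.2 = q.2
      · rw [h2, dist_self] at e2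
        exact zero_ne_one e2
      · exact hc2 ⟨e1, h2, land_of_ndisj C C' h2 hd⟩
  · rw [FB_R]
    refine ⟨fun e1 e2 e3 => hc1 ⟨e1.symm, e2.symm, e3.symm⟩, fun e1 e2 => ?_, fun e1 e2 => ?_⟩
    · have k1 := hs.1 p
      have k2 := hs'.1 q
      rw [H324.mem_palX] at k1 k2
      rw [e2, ← e1] at k1
      exact anti_pal h3 k2 k1
    · by_contra hd
      by_cases h2 : p.2 = q.2
      · rw [h2, dist_self] at e2
        exact zero_ne_one e2
      · refine hc2 ⟨e1.symm, h2, ?_⟩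
        rw [ms_comm]
        exact land_of_ndisj C C' (Ne.symm h2) hd


/-- neighbours in the graph of the twelve positions -/
def Nbr (p q : Fin 6 × Fin 2) : Prop :=
  (p.2 = q.2 ∧ (p.1 = q.1 + 1 ∨ p.1 = q.1 - 1)) ∨ (p.1 = q.1 ∧ p.2 ≠ q.2)

/-- two selections of the palettes at one time, joined by a strongly connected change -/
structure Mv (C : Ctr U T z a b c d e f) (C' : Ctr U T v a c b e d f) (u : ℝ)
    (h h' : Fin 6 × Fin 2 → Fin 4) : Prop where
  h3 : ∀ (s : Fin 2) (k : Fin 6), (T (pt ((FB C C').cen s) (u + (k.val : ℝ)))).ncard ≤ 3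
  hd : dist z v = 1
  hs : Scc.Sel (FB C C').R (H324.PalX (FB C C').X u) h
  hs' : Scc.Sel (FB C C').R (H324.PalX (FB C C').X u) h'
  sc : Scc.SC (FB C C').R h h'

variable {u : ℝ} {h h' : Fin 6 × Fin 2 → Fin 4} {o : Fin 6 → Op × Op}

theorem nbr_of {p q : Fin 6 × Fin 2} {P Q : Prop}
    (hr : (p.2 = q.2 ∧ (q.1 = p.1 + 1 ∨ p.1 = q.1 + 1) ∧ P) ∨ (p.1 = q.1 ∧ p.2 ≠ q.2 ∧ Q)) :
    Nbr p q := by
  have key : ∀ i j : Fin 6, j = i + 1 → i = j - 1 := by decide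
  rcases hr with ⟨h1, h2 | h2, -⟩ | ⟨h1, h2, -⟩
  · exact Or.inl ⟨h1, Or.inr (key _ _ h2)⟩
  · exact Or.inl ⟨h1, Or.inl h2⟩
  · exact Or.inr ⟨h1, h2⟩

/-- a changed position needs a neighbour -/
theorem Mv.need (M : Mv C C' u h h') {q : Fin 6 × Fin 2} (hq : h q ≠ h' q)
    (hp : ∃ p, p ≠ q ∧ h p ≠ h' p) :
    ∃ p, Nbr p q ∧ Nat.land (ms p.2 (h p)) (ms q.2 (h' q)) ≠ 0 := by
  obtain ⟨p0, hp0, hp0'⟩ := hp
  obtain ⟨q', hq', p, -, -, hr⟩ := M.sc {q} ⟨q, rfl⟩ (by rintro _ rfl; exact hq) ⟨p0, hp0, hp0'⟩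
  obtain rfl : q' = q := hq'
  have hc := req_cases C C' M.h3 M.hs M.hs' hr
  refine ⟨p, nbr_of hc, ?_⟩
  rcases hc with ⟨e1, -, e2⟩ | ⟨-, -, e2⟩
  · rw [e1, e2]; exact ms_ne _ _
  · exact e2

/-- a changed position is needed by a neighbour -/
theorem Mv.needed (M : Mv C C' u h h') {q : Fin 6 × Fin 2} (hq : h q ≠ h' q)
    (hp : ∃ p, p ≠ q ∧ h p ≠ h' p) :
    ∃ p, Nbr p q ∧ Nat.land (ms q.2 (h q)) (ms p.2 (h' p)) ≠ 0 := by
  obtain ⟨p0, hp0, hp0'⟩ := hp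
  obtain ⟨q1, hq1, p, hp, hpd, hr⟩ := M.sc {x | x ≠ q ∧ h x ≠ h' x} ⟨p0, hp0, hp0'⟩
    (fun x hx => hx.2) ⟨q, fun hx => hx.1 rfl, hq⟩
  have hpq : p = q := by
    by_contra hne
    exact hp ⟨hne, hpd⟩
  subst hpq
  have hc := req_cases C C' M.h3 M.hs M.hs' hr
  refine ⟨q1, ?_, ?_⟩
  · have key : ∀ i j : Fin 6, (i = j + 1 → j = i - 1) ∧ (i = j - 1 → j = i + 1) := by decide
    rcases nbr_of hc with ⟨e1, e2 | e2⟩ | ⟨e1, e2⟩
    · exact Or.inl ⟨e1.symm, Or.inr ((key _ _).1 e2)⟩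
    · exact Or.inl ⟨e1.symm, Or.inl ((key _ _).2 e2)⟩
    · exact Or.inr ⟨e1.symm, Ne.symm e2⟩
  · rcases hc with ⟨e1, -, e2⟩ | ⟨-, -, e2⟩
    · rw [e1, e2]; exact ms_ne _ _
    · exact e2

/-- the options belong to the selections -/
structure Of (o : Fin 6 → Op × Op) (h h' : Fin 6 × Fin 2 → Fin 4) : Prop where
  z1 : ∀ k, (o k).1.1 = lz (h (k, 0))
  z2 : ∀ k, (o k).1.2.1 = lz (h' (k, 0))
  v1 : ∀ k, (o k).2.1 = lv (h (k, 1))
  v2 : ∀ k, (o k).2.2.1 = lv (h' (k, 1))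

/-- the neighbours of a position on the first circle -/
theorem nbr_z {p : Fin 6 × Fin 2} {k : Fin 6} (hn : Nbr p (k, 0)) :
    p = (k - 1, 0) ∨ p = (k + 1, 0) ∨ p = (k, 1) := by
  have h01 : ∀ s : Fin 2, s ≠ 0 → s = 1 := by decide
  rcases hn with ⟨e1, e2 | e2⟩ | ⟨e1, e2⟩
  · exact Or.inr (Or.inl (Prod.ext e2 e1))
  · exact Or.inl (Prod.ext e2 e1)
  · exact Or.inr (Or.inr (Prod.ext e1 (h01 _ e2)))

/-- the neighbours of a position on the second circle -/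
theorem nbr_v {p : Fin 6 × Fin 2} {k : Fin 6} (hn : Nbr p (k, 1)) :
    p = (k - 1, 1) ∨ p = (k + 1, 1) ∨ p = (k, 0) := by
  have h01 : ∀ s : Fin 2, s ≠ 1 → s = 0 := by decide
  rcases hn with ⟨e1, e2 | e2⟩ | ⟨e1, e2⟩
  · exact Or.inr (Or.inl (Prod.ext e2 e1))
  · exact Or.inl (Prod.ext e2 e1)
  · exact Or.inr (Or.inr (Prod.ext e1 (h01 _ e2)))

theorem Mv.first_z (M : Mv C C' u h h') (G : Geo o) (W : Of o h h')
    (h2 : ∀ q, h q ≠ h' q → ∃ p, p ≠ q ∧ h p ≠ h' p) (k : Fin 6) :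
    (o k).1.1 = (o k).1.2.1 ∨
      ((sm (o k).1 (o (k - 1)).1 &&& 64 = 64 ∨ sm (o k).1 (o (k + 1)).1 &&& 64 = 64 ∨
          sm (o k).1 (o k).2 &&& 64 = 64) ∧
        (sm (o k).1 (o (k - 1)).1 &&& 128 = 128 ∨ sm (o k).1 (o (k + 1)).1 &&& 128 = 128 ∨
          sm (o k).1 (o k).2 &&& 128 = 128)) := by
  have em : E (o k).1 (o (k - 1)).1 = true := by
    have := G.ez' (k - 1)
    rwa [pm] at this
  by_cases hq : h (k, 0) = h' (k, 0)
  · left; rw [W.z1, W.z2, hq]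
  right
  constructor
  · obtain ⟨p, hn, hl⟩ := M.need hq (h2 _ hq)
    rcases nbr_z hn with rfl | rfl | rfl
    · refine Or.inl ((chkB_spec chkB_zz (G.mz k) (G.mz _) em).1 ?_)
      rw [W.z1, W.z2]; exact hl
    · refine Or.inr (Or.inl ((chkB_spec chkB_zz (G.mz k) (G.mz _) (G.ez k)).1 ?_))
      rw [W.z1, W.z2]; exact hl
    · refine Or.inr (Or.inr ((chkB_spec chkB_zv (G.mz k) (G.mv _) (G.ep k)).1 ?_))
      rw [W.v1, W.z2]; exact hl
  · obtain ⟨p, hn, hl⟩ := M.needed hq (h2 _ hq)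
    rcases nbr_z hn with rfl | rfl | rfl
    · refine Or.inl ((chkB_spec chkB_zz (G.mz k) (G.mz _) em).2 ?_)
      rw [W.z1, W.z2]; exact hl
    · refine Or.inr (Or.inl ((chkB_spec chkB_zz (G.mz k) (G.mz _) (G.ez k)).2 ?_))
      rw [W.z1, W.z2]; exact hl
    · refine Or.inr (Or.inr ((chkB_spec chkB_zv (G.mz k) (G.mv _) (G.ep k)).2 ?_))
      rw [W.z1, W.v2]; exact hl

theorem Mv.first_v (M : Mv C C' u h h') (G : Geo o) (W : Of o h h')
    (h2 : ∀ q, h q ≠ h' q → ∃ p, p ≠ q ∧ h p ≠ h' p) (k : Fin 6) :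
    (o k).2.1 = (o k).2.2.1 ∨
      ((sm (o k).2 (o (k - 1)).2 &&& 64 = 64 ∨ sm (o k).2 (o (k + 1)).2 &&& 64 = 64 ∨
          sm (o k).2 (o k).1 &&& 64 = 64) ∧
        (sm (o k).2 (o (k - 1)).2 &&& 128 = 128 ∨ sm (o k).2 (o (k + 1)).2 &&& 128 = 128 ∨
          sm (o k).2 (o k).1 &&& 128 = 128)) := by
  have em : E (o k).2 (o (k - 1)).2 = true := by
    have := G.ev' (k - 1)
    rwa [pm] at this
  by_cases hq : h (k, 1) = h' (k, 1)
  · left; rw [W.v1, W.v2, hq]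
  right
  constructor
  · obtain ⟨p, hn, hl⟩ := M.need hq (h2 _ hq)
    rcases nbr_v hn with rfl | rfl | rfl
    · refine Or.inl ((chkB_spec chkB_vv (G.mv k) (G.mv _) em).1 ?_)
      rw [W.v1, W.v2]; exact hl
    · refine Or.inr (Or.inl ((chkB_spec chkB_vv (G.mv k) (G.mv _) (G.ev k)).1 ?_))
      rw [W.v1, W.v2]; exact hl
    · refine Or.inr (Or.inr ((chkB_spec chkB_vz (G.mv k) (G.mz _) (G.ep' k)).1 ?_))
      rw [W.z1, W.v2]; exact hl
  · obtain ⟨p, hn, hl⟩ := M.needed hq (h2 _ hq)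
    rcases nbr_v hn with rfl | rfl | rfl
    · refine Or.inl ((chkB_spec chkB_vv (G.mv k) (G.mv _) em).2 ?_)
      rw [W.v1, W.v2]; exact hl
    · refine Or.inr (Or.inl ((chkB_spec chkB_vv (G.mv k) (G.mv _) (G.ev k)).2 ?_))
      rw [W.v1, W.v2]; exact hl
    · refine Or.inr (Or.inr ((chkB_spec chkB_vz (G.mv k) (G.mz _) (G.ep' k)).2 ?_))
      rw [W.v1, W.z2]; exact hl

theorem or3_swap {P Q R : Prop} (h : P ∨ Q ∨ R) : Q ∨ P ∨ R := by tauto

theorem Mv.loc (M : Mv C C' u h h') (G : Geo o) (W : Of o h h')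
    (h2 : ∀ q, h q ≠ h' q → ∃ p, p ≠ q ∧ h p ≠ h' p) : Loc o where
  mz := G.mz
  mv := G.mv
  ep := G.ep
  ep' := G.ep'
  ez := G.ez
  ez' := G.ez'
  ev := G.ev
  ev' := G.ev'
  okz := fun k => okT_of ((M.first_z G W h2 k).imp_right fun h => codes192 h.1 h.2) (G.pz k)
  okz' := fun k => okT_of ((M.first_z G W h2 k).imp_right fun h =>
    codes192 (or3_swap h.1) (or3_swap h.2)) (G.pz' k)
  okv := fun k => okT_of ((M.first_v G W h2 k).imp_right fun h => codes192 h.1 h.2) (G.pv k)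
  okv' := fun k => okT_of ((M.first_v G W h2 k).imp_right fun h =>
    codes192 (or3_swap h.1) (or3_swap h.2)) (G.pv' k)

/-- disjoint masks at parallel radii -/
theorem land_sel (C : Ctr U T z a b c d e f) (C' : Ctr U T v a c b e d f) (hd : dist z v = 1)
    {P : Fin 6 × Fin 2 → Set (Fin 4)} {g : Fin 6 × Fin 2 → Fin 4}
    (hs : Scc.Sel (FB C C').R P g) (k : Fin 6) :
    Nat.land (lz (g (k, 0))) (lv (g (k, 1))) = 0 :=
  land_of_disj ((((FB_R C C').1 (hs.2 (k, 0) (k, 1))).2.2 rfl hd))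

/-- neighbours on a circle have different letters -/
theorem ne_sel (C : Ctr U T z a b c d e f) (C' : Ctr U T v a c b e d f)
    {P : Fin 6 × Fin 2 → Set (Fin 4)} {g : Fin 6 × Fin 2 → Fin 4}
    (hs : Scc.Sel (FB C C').R P g) (s : Fin 2) (k : Fin 6) : g (k, s) ≠ g (k + 1, s) :=
  ((FB_R C C').1 (hs.2 (k, s) (k + 1, s))).1 rfl (Or.inl rfl)

/-- antipodes, two selections of the same palettes -/
theorem op_sel (hd : dist z v = 1)
    (h3 : ∀ (s : Fin 2) (k : Fin 6), (T (pt ((FB C C').cen s) (u + (k.val : ℝ)))).ncard ≤ 3)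
    {g g' : Fin 6 × Fin 2 → Fin 4} (hs : Scc.Sel (FB C C').R (H324.PalX (FB C C').X u) g)
    (hs' : Scc.Sel (FB C C').R (H324.PalX (FB C C').X u) g') (k : Fin 6) :
    Words.Trie.op (jl (g (k, 0)) (g (k, 1))) (jl (g' (k + 3, 0)) (g' (k + 3, 1))) = true := by
  have e0 := anti_pal (F := FB C C') h3 (hs.1 (k, 0)) (hs'.1 (k + 3, 0))
  have e1 := anti_pal (F := FB C C') h3 (hs.1 (k, 1)) (hs'.1 (k + 3, 1))
  exact op_facts _ _ _ _ (land_sel C C' hd hs k) (land_sel C C' hd hs' _) e0.1 e0.2 e1.1 e1.2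

/-- the words are legal -/
theorem legB (hd : dist z v = 1)
    (h3 : ∀ (s : Fin 2) (k : Fin 6), (T (pt ((FB C C').cen s) (u + (k.val : ℝ)))).ncard ≤ 3)
    {g : Fin 6 × Fin 2 → Fin 4} (hs : Scc.Sel (FB C C').R (H324.PalX (FB C C').X u) g) :
    LegB (wB g) := by
  have hn : ∀ k : Fin 6, nb (jl (g (k, 0)) (g (k, 1))) (jl (g (k + 1, 0)) (g (k + 1, 1))) = true :=
    fun k => nb_facts _ _ _ _ (land_sel C C' hd hs k) (land_sel C C' hd hs _)
      (ne_sel C C' hs 0 k) (ne_sel C C' hs 1 k)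
  have ho : ∀ k : Fin 6, Words.Trie.op (jl (g (k, 0)) (g (k, 1)))
      (jl (g (k + 3, 0)) (g (k + 3, 1))) = true := fun k =>
    op_sel hd h3 hs hs k
  refine ⟨fun k hk => ?_, hn 0, hn 1, hn 2, hn 3, hn 4, hn 5, ho 0, ho 1, ho 2⟩
  have := wB_fin g ⟨k, hk⟩
  have e : ((⟨k, hk⟩ : Fin 6).val) = k := rfl
  rw [e] at this
  rw [this]
  exact (jl_facts _ _ (land_sel C C' hd hs _)).2.2.2

/-- a requirement on a circle is a requirement of the columns -/
theorem rq_of {x y x' y' x1 y1 x1' y1' : Fin 4} (l1 : Nat.land (lz x) (lv y) = 0)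
    (l2 : Nat.land (lz x') (lv y') = 0) (l3 : Nat.land (lz x1) (lv y1) = 0)
    (l4 : Nat.land (lz x1') (lv y1') = 0)
    (h : (x1 = x' ∧ x ≠ x' ∧ x1 ≠ x1') ∨ (y1 = y' ∧ y ≠ y' ∧ y1 ≠ y1')) :
    Tab.rq (jl x y) (jl x' y') (jl x1 y1) (jl x1' y1') = true := by
  obtain ⟨-, a1, a2, -⟩ := jl_facts _ _ l1
  obtain ⟨-, b1, b2, -⟩ := jl_facts _ _ l2
  obtain ⟨-, c1, c2, -⟩ := jl_facts _ _ l3
  obtain ⟨-, d1, d2, -⟩ := jl_facts _ _ l4
  unfold Tab.rq
  rw [a1, a2, b1, b2, c1, c2, d1, d2, Bool.or_eq_true]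
  have hb : ∀ {i j : Fin 4}, i ≠ j → Nat.beq i.val j.val = false := by decide
  rcases h with ⟨e1, e2, e3⟩ | ⟨e1, e2, e3⟩
  · left
    rw [e1, Nat.beq_refl, hb e2, ← e1, hb e3]; rfl
  · right
    rw [e1, Nat.beq_refl, hb e2, ← e1, hb e3]; rfl

theorem chC_of (W : Of o h h') (k : Fin 6) :
    chC (o k) = true ↔ (h (k, 0) ≠ h' (k, 0) ∨ h (k, 1) ≠ h' (k, 1)) := by
  unfold chC
  rw [Bool.or_eq_true, W.z1, W.z2, W.v1, W.v2, Bool.not_eq_true', Bool.not_eq_true']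
  have k1 : ∀ x y : Fin 4, Nat.beq (lz x) (lz y) = false ↔ x ≠ y := by decide
  have k2 : ∀ x y : Fin 4, Nat.beq (lv x) (lv y) = false ↔ x ≠ y := by decide
  rw [k1, k2]

theorem Mv.wds (M : Mv C C' u h h') (G : Geo o) (W : Of o h h')
    (h2 : ∀ q, h q ≠ h' q → ∃ p, p ≠ q ∧ h p ≠ h' p) :
    Wds o (fun k => jl (h (k, 0)) (h (k, 1))) (fun k => jl (h' (k, 0)) (h' (k, 1))) where
  loc := M.loc G W h2
  hz := fun k => by
    rw [W.z1, W.v1]
    exact (jl_facts _ _ (land_sel C C' M.hd M.hs k)).1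
  gz := fun k => by
    rw [W.z2, W.v2]
    exact (jl_facts _ _ (land_sel C C' M.hd M.hs' k)).1
  lt := fun k => (jl_facts _ _ (land_sel C C' M.hd M.hs k)).2.2.2
  nbh := fun k => nb_facts _ _ _ _ (land_sel C C' M.hd M.hs k) (land_sel C C' M.hd M.hs _)
      (ne_sel C C' M.hs 0 k) (ne_sel C C' M.hs 1 k)
  o1 := fun k => op_sel M.hd M.h3 M.hs M.hs k
  o2 := fun k => op_sel M.hd M.h3 M.hs' M.hs' k
  o3 := fun k => op_sel M.hd M.h3 M.hs M.hs' k
  o4 := fun k => op_sel M.hd M.h3 M.hs' M.hs k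
  cut := by
    rintro J ⟨j, hj, hjc⟩ ⟨j', hj', hjc'⟩
    rw [chC_of W] at hjc hjc'
    obtain ⟨q, ⟨hq, hqd⟩, p, hp, hpd, hr⟩ := M.sc {x | J x.1 = true ∧ h x ≠ h' x}
      (by
        rcases hjc with hc | hc
        · exact ⟨(j, 0), hj, hc⟩
        · exact ⟨(j, 1), hj, hc⟩) (fun x hx => hx.2)
      (by
        rcases hjc' with hc | hc
        · exact ⟨(j', 0), fun hx => by
              have hx1 : J j' = true := hx.1
              rw [hj'] at hx1
              exact absurd hx1 (by decide), hc⟩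
        · exact ⟨(j', 1), fun hx => by
              have hx1 : J j' = true := hx.1
              rw [hj'] at hx1
              exact absurd hx1 (by decide), hc⟩)
    have hpJ : J p.1 = false := by
      by_contra hcon
      exact hp ⟨by simpa using hcon, hpd⟩
    have L := fun k => land_sel C C' M.hd M.hs k
    have L' := fun k => land_sel C C' M.hd M.hs' k
    rcases req_cases C C' M.h3 M.hs M.hs' hr with ⟨e1, e2, e3⟩ | ⟨e1, -, -⟩
    · obtain ⟨i, s⟩ := p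
      obtain ⟨i', s'⟩ := q
      obtain rfl : s = s' := e1
      have h01 : ∀ s : Fin 2, s = 0 ∨ s = 1 := by decide
      rcases e2 with e2 | e2
      · obtain rfl : i' = i + 1 := e2
        refine ⟨i, Or.inr ⟨hq, hpJ, ?_⟩⟩
        refine rq_of (L _) (L' _) (L _) (L' _) ?_
        rcases h01 s with rfl | rfl
        · exact Or.inl ⟨e3, hqd, hpd⟩
        · exact Or.inr ⟨e3, hqd, hpd⟩
      · obtain rfl : i = i' + 1 := e2
        refine ⟨i', Or.inl ⟨hq, hpJ, ?_⟩⟩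
        refine rq_of (L _) (L' _) (L _) (L' _) ?_
        rcases h01 s with rfl | rfl
        · exact Or.inl ⟨e3, hqd, hpd⟩
        · exact Or.inr ⟨e3, hqd, hpd⟩
    · rw [← e1, hpJ] at hq
      exact absurd hq (by decide)

/-- two letters of the same palette are not `A` and `C` -/
theorem noac {F : Fam U T (Fin 2)} (h3 : ∀ (s : Fin 2) (k : Fin 6),
    (T (pt (F.cen s) (u + (k.val : ℝ)))).ncard ≤ 3) {p : Fin 6 × Fin 2} {x y : Fin 4}
    (hx : x ∈ H324.PalX F.X u p) (hy : y ∈ H324.PalX F.X u p) :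
    ¬ (x = 2 ∧ y = 3) ∧ ¬ (x = 3 ∧ y = 2) := by
  constructor
  · rintro ⟨rfl, rfl⟩
    exact (F.ctr p.2).x_ac (h3 p.2 p.1) hx hy
  · rintro ⟨rfl, rfl⟩
    exact (F.ctr p.2).x_ac (h3 p.2 p.1) hy hx

/-- **One step**, with the geometric half as a hypothesis. -/
theorem Mv.step (M : Mv C C' u h h') (hne : h ≠ h') (G : Geo o) (W : Of o h h') :
    StepB (wB h) (wB h') := by
  obtain ⟨q, hq⟩ := Function.ne_iff.1 hne
  by_cases h2 : ∃ p, p ≠ q ∧ h p ≠ h' p
  · -- at least two positions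
    have h2' : ∀ q, h q ≠ h' q → ∃ p, p ≠ q ∧ h p ≠ h' p := by
      intro q' hq'
      by_cases hqq : q = q'
      · rw [← hqq]; exact h2
      · exact ⟨q, hqq, hq⟩
    have hc : ∃ k, chC (o k) = true := by
      refine ⟨q.1, (chC_of W q.1).2 ?_⟩
      have h01 : ∀ s : Fin 2, s = 0 ∨ s = 1 := by decide
      obtain ⟨k, s⟩ := q
      rcases h01 s with rfl | rfl
      · exact Or.inl hq
      · exact Or.inr hq
    obtain ⟨m, hm, hf⟩ := (M.wds G W h2').multi hc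
    exact StepB.multi hm (legB M.hd M.h3 M.hs) (legB M.hd M.h3 M.hs') (fitW_of_fitB hf)
  · push Not at h2
    have hs1 := legB M.hd M.h3 M.hs
    have hs2 := legB M.hd M.h3 M.hs'
    have hup : wB h' = Function.update (wB h) q.1.val (jl (h' (q.1, 0)) (h' (q.1, 1))) := by
      funext n
      by_cases hn : n = q.1.val
      · subst hn
        rw [Function.update_self, wB_fin]
      · rw [Function.update_of_ne hn]
        unfold wB
        by_cases hk : n < 6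
        · rw [dif_pos hk, dif_pos hk]
          have hne' : ∀ s : Fin 2, ((⟨n, hk⟩ : Fin 6), s) ≠ q := by
            rintro s rfl
            exact hn rfl
          rw [h2 _ (hne' 0), h2 _ (hne' 1)]
        · rw [dif_neg hk, dif_neg hk]
    rw [hup] at hs2 ⊢
    refine StepB.single q.1.isLt hs1 hs2 ?_
    rw [wB_fin]
    refine al_facts _ _ _ _ (land_sel C C' M.hd M.hs _) (land_sel C C' M.hd M.hs' _) ?_
    have n0 := noac (F := FB C C') M.h3 (M.hs.1 (q.1, 0)) (M.hs'.1 (q.1, 0))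
    have n1 := noac (F := FB C C') M.h3 (M.hs.1 (q.1, 1)) (M.hs'.1 (q.1, 1))
    have h01 : ∀ s : Fin 2, s = 0 ∨ s = 1 := by decide
    obtain ⟨k, s⟩ := q
    rcases h01 s with rfl | rfl
    · refine Or.inr ⟨h2 (k, 1) ?_, hq, n0.1, n0.2⟩
      exact fun e => absurd (congrArg Prod.snd e) (show ¬ ((1 : Fin 2) = 0) by decide)
    · refine Or.inl ⟨h2 (k, 0) ?_, hq, n1.1, n1.2⟩
      exact fun e => absurd (congrArg Prod.snd e) (show ¬ ((0 : Fin 2) = 1) by decide)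

end

end circles

end Vale.Agent.P032.S5.H724
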