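import Vale.Agent.P032.S5.H724.Msk

/-!
# P032: the options of the twelve positions of a beta pair
-/

open Set Filter Topology Metric

noncomputable section

namespace Vale.Agent.P032.S5.H724

open Tab
open Vale.Agent.P032.Six Vale.Agent.P032.S5.H767

variable {U : Fin 6 → Set ℂ} {T : ℂ → Set (Fin 6)} {z v : ℂ} {a b c d e f : Fin 6}

/-- the colours `a, ..., f` -/
def nmB (a b c d e f : Fin 6) : Fin 6 → Fin 6 := ![a, b, c, d, e, f]

theorem nmB_surj (C : Ctr U T z a b c d e f) : Function.Surjective (nmB a b c d e f) := by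
  intro i
  rcases C.all i with rfl | rfl | rfl | rfl | rfl | rfl
  exacts [⟨0, rfl⟩, ⟨1, rfl⟩, ⟨2, rfl⟩, ⟨3, rfl⟩, ⟨4, rfl⟩, ⟨5, rfl⟩]

theorem nmB_inj (C : Ctr U T z a b c d e f) : Function.Injective (nmB a b c d e f) :=
  Finite.injective_iff_surjective.2 (nmB_surj C)

/-- number of the bits -/
def pcn (t : ℕ) : ℕ := (Finset.univ.filter fun i : Fin 6 => t.testBit i.val = true).card

theorem ncard_msk {nm : Fin 6 → Fin 6} (hi : Function.Injective nm) (hs : Function.Surjective nm)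
    {S : Set (Fin 6)} {t : ℕ} (h : Msk nm S t) : S.ncard = pcn t := by
  classical
  have e : S = ((Finset.univ.filter fun i : Fin 6 => t.testBit i.val = true).image nm :
      Finset (Fin 6)) := by
    ext x
    obtain ⟨i, rfl⟩ := hs x
    rw [Finset.mem_coe, Finset.mem_image]
    constructor
    · intro hx
      exact ⟨i, Finset.mem_filter.2 ⟨Finset.mem_univ i, (h.2 i).2 hx⟩, rfl⟩
    · rintro ⟨j, hj, hji⟩
      rw [← hji]
      exact (h.2 j).1 (Finset.mem_filter.1 hj).2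
  rw [e, Set.ncard_coe_finset, Finset.card_image_of_injective _ hi]
  rfl

set_option maxRecDepth 100000 in
theorem fin_oz : ∀ l m : Fin 4, ∀ t : Fin 64, l ≠ m →
    (∀ i : Fin 6, (lz l).testBit i.val = true → t.val.testBit i.val = true) →
    (∀ i : Fin 6, (lz m).testBit i.val = true → t.val.testBit i.val = true) → pcn t.val ≤ 3 →
    (lz l, lz l, t.val) ∈ oz ∧ (lz l, lz m, t.val) ∈ oz ∧ t.val ≠ 0 ∧ 2 ≤ pcn t.val := by
  decide +kernel

set_option maxRecDepth 100000 in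
theorem fin_ov : ∀ l m : Fin 4, ∀ t : Fin 64, l ≠ m →
    (∀ i : Fin 6, (lv l).testBit i.val = true → t.val.testBit i.val = true) →
    (∀ i : Fin 6, (lv m).testBit i.val = true → t.val.testBit i.val = true) → pcn t.val ≤ 3 →
    (lv l, lv l, t.val) ∈ ov ∧ (lv l, lv m, t.val) ∈ ov ∧ t.val ≠ 0 ∧ 2 ≤ pcn t.val := by
  decide +kernel

theorem sing_oz : ∀ l : Fin 4, (lz l, lz l, 0) ∈ oz ∧ lz l < 64 := by decide

theorem sing_ov : ∀ l : Fin 4, (lv l, lv l, 0) ∈ ov ∧ lv l < 64 := by decide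

theorem lz_col (a b c d e f : Fin 6) (l : Fin 4) (i : Fin 6)
    (h : (lz l).testBit i.val = true) : nmB a b c d e f i ∈ col a b c d e f l := by
  have key : ∀ (l : Fin 4) (i : Fin 6), (lz l).testBit i.val = true →
      (l = 0 ∧ i = 4) ∨ (l = 1 ∧ i = 5) ∨ (l = 2 ∧ i = 0) ∨ (l = 2 ∧ i = 1) ∨ (l = 3 ∧ i = 2) ∨
        (l = 3 ∧ i = 3) := by decide
  rcases key l i h with ⟨rfl, rfl⟩ | ⟨rfl, rfl⟩ | ⟨rfl, rfl⟩ | ⟨rfl, rfl⟩ | ⟨rfl, rfl⟩ | ⟨rfl, rfl⟩
  exacts [rfl, rfl, Or.inl rfl, Or.inr rfl, Or.inl rfl, Or.inr rfl]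

theorem lv_col (a b c d e f : Fin 6) (l : Fin 4) (i : Fin 6)
    (h : (lv l).testBit i.val = true) : nmB a b c d e f i ∈ col a c b e d f l := by
  have key : ∀ (l : Fin 4) (i : Fin 6), (lv l).testBit i.val = true →
      (l = 0 ∧ i = 3) ∨ (l = 1 ∧ i = 5) ∨ (l = 2 ∧ i = 0) ∨ (l = 2 ∧ i = 2) ∨ (l = 3 ∧ i = 1) ∨
        (l = 3 ∧ i = 4) := by decide
  rcases key l i h with ⟨rfl, rfl⟩ | ⟨rfl, rfl⟩ | ⟨rfl, rfl⟩ | ⟨rfl, rfl⟩ | ⟨rfl, rfl⟩ | ⟨rfl, rfl⟩
  exacts [rfl, rfl, Or.inl rfl, Or.inr rfl, Or.inl rfl, Or.inr rfl]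

/-- the only letter is there on the whole circle near the point -/
theorem only_near (C : Ctr U T z a b c d e f) {y : ℂ} {l : Fin 4}
    (only : ∀ m, y ∈ Lt T z a b c d e f m → m = l) {t : Fin 6} (ht : t ∈ col a b c d e f l) :
    ∀ᶠ q in 𝓝[sphere z 1] y, t ∈ T q := by
  have h2 : ∀ m, m ≠ l → ∀ᶠ q in 𝓝 y, q ∉ Lt T z a b c d e f m := by
    intro m hm
    exact (Lt_closed C.irr m).isOpen_compl.mem_nhds fun h3 => hm (only m h3)
  have h3 : ∀ᶠ q in 𝓝 y, ∀ m, m ≠ l → q ∉ Lt T z a b c d e f m := by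
    rw [eventually_all]
    intro m
    by_cases hm : m = l
    · exact Eventually.of_forall fun q h4 => absurd hm h4
    · filter_upwards [h2 m hm] with q hq _
      exact hq
  filter_upwards [mem_nhdsWithin_of_mem_nhds h3, self_mem_nhdsWithin] with q hq hqz
  obtain ⟨m, hm⟩ := C.cover (y := q) hqz
  by_cases hml : m = l
  · rw [← hml] at ht
    exact Lt_col C.irr hm ht
  · exact absurd hm (hq m hml)

/-- the option of a position, generic form -/
theorem exists_opt {nm : Fin 6 → Fin 6} (hi : Function.Injective nm) (hs : Function.Surjective nm)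
    (C : Ctr U T z a b c d e f) {L : Fin 4 → ℕ} {O : List Op}
    (hL : ∀ (l : Fin 4) (i : Fin 6), (L l).testBit i.val = true → nm i ∈ col a b c d e f l)
    (h1 : ∀ l : Fin 4, (L l, L l, 0) ∈ O ∧ L l < 64)
    (h2 : ∀ l m : Fin 4, ∀ t : Fin 64, l ≠ m →
      (∀ i : Fin 6, (L l).testBit i.val = true → t.val.testBit i.val = true) →
      (∀ i : Fin 6, (L m).testBit i.val = true → t.val.testBit i.val = true) → pcn t.val ≤ 3 →
      (L l, L l, t.val) ∈ O ∧ (L l, L m, t.val) ∈ O ∧ t.val ≠ 0 ∧ 2 ≤ pcn t.val)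
    {y : ℂ} (hy : dist y z = 1) (h3 : (T y).ncard ≤ 3) {l l' : Fin 4}
    (hl : y ∈ Lt T z a b c d e f l) (hl' : y ∈ Lt T z a b c d e f l') :
    ∃ t, Pos T nm z y (L l, L l', t) ∧ (L l, L l', t) ∈ O := by
  by_cases hm : ∃ m, m ≠ l ∧ y ∈ Lt T z a b c d e f m
  · obtain ⟨m, hml, hm⟩ := hm
    obtain ⟨t, ht⟩ := exists_msk nm (T y)
    have hsub : ∀ n : Fin 4, y ∈ Lt T z a b c d e f n →
        ∀ i : Fin 6, (L n).testBit i.val = true → t.testBit i.val = true := fun n hn i hi =>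
      (ht.2 i).2 (Lt_col C.irr hn (hL n i hi))
    have hpc : pcn t ≤ 3 := by rw [← ncard_msk hi hs ht]; exact h3
    obtain ⟨k1, k2, k3, k4⟩ := h2 l m ⟨t, ht.1⟩ (Ne.symm hml) (hsub l hl) (hsub m hm) hpc
    refine ⟨t, ⟨hy, h3, Or.inr ⟨k3, ht⟩, fun _ => ?_⟩, ?_⟩
    · rw [ncard_msk hi hs ht]; exact k4
    · rcases C.two h3 hl hm hl' with h | h | h
      · exact absurd h.symm hml
      · rw [← h]; exact k1
      · rw [← h]; exact k2
  · push Not at hm
    have only : ∀ m, y ∈ Lt T z a b c d e f m → m = l := by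
      intro m hmm
      by_contra hne
      exact hm m hne hmm
    obtain rfl : l' = l := only l' hl'
    refine ⟨0, ⟨hy, h3, Or.inl ⟨rfl, (h1 _).2, fun i hi => ?_⟩, fun h => absurd rfl h⟩, (h1 _).1⟩
    exact only_near C only (hL _ i hi)

/-! ### The prism -/

theorem pt_add_one' (z : ℂ) (w : ℝ) (j : Fin 6) :
    pt z (w + ((j + 1).val : ℝ)) = pt z (w + 1 + (j.val : ℝ)) := by
  rw [Fam.pt_succ]; congr 1; ring

theorem dist_succ (z : ℂ) (u : ℝ) (k : Fin 6) :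
    dist (pt z (u + (k.val : ℝ))) (pt z (u + ((k + 1).val : ℝ))) = 1 := by
  rw [Fam.pt_succ]; exact dist_pt_one z _

theorem dist_pred (z : ℂ) (u : ℝ) (k : Fin 6) :
    dist (pt z (u + (k.val : ℝ))) (pt z (u + ((k - 1).val : ℝ))) = 1 := by
  have := dist_succ z u (k - 1)
  rw [pm, dist_comm] at this
  exact this

theorem pt_two' (z : ℂ) (u : ℝ) (j : Fin 6) :
    pt z (u + ((j + 1 + 1).val : ℝ)) = pt z (u + (j.val : ℝ) + 2) := by
  rw [pt_add_one', pt_add_one']; congr 1; ring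

theorem sum_pt (z : ℂ) (u : ℝ) (k : Fin 6) :
    pt z (u + ((k - 1).val : ℝ)) + pt z (u + ((k + 1).val : ℝ)) = pt z (u + (k.val : ℝ)) + z := by
  have h := pt_sum z (u + ((k - 1).val : ℝ))
  have e1 := pt_two' z u (k - 1)
  have e2 := Fam.pt_succ z u (k - 1)
  rw [pm] at e1 e2
  rw [← e1, ← e2] at h
  exact h

theorem off_pm (z : ℂ) (u : ℝ) (k : Fin 6) :
    Off (pt z (u + ((k - 1).val : ℝ))) (pt z (u + (k.val : ℝ))) (pt z (u + ((k + 1).val : ℝ))) := by
  have h := pt_off z (u + ((k - 1).val : ℝ))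
  have e1 := pt_two' z u (k - 1)
  have e2 := Fam.pt_succ z u (k - 1)
  rw [pm] at e1 e2
  rw [← e1, ← e2] at h
  exact h

theorem off_cen {z y y' : ℂ} (hy : dist y z = 1) (hy' : dist y' z = 1) : Off y' y z := tri hy hy'

/-- the other centre is not at one of the six points -/
def NS (z v : ℂ) (u : ℝ) : Prop := ∀ k : Fin 6, pt z (u + (k.val : ℝ)) ≠ v

theorem pt_sub (z v : ℂ) (w : ℝ) : pt v w = pt z w + (v - z) := by unfold pt; ring

theorem NS.neg (h : NS z v u) (k : Fin 6) : pt z (u + (k.val : ℝ)) ≠ 2 * z - v := by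
  intro e
  refine h (k + 3) ?_
  rw [Fam.pt_add_three, pt_three, e]
  ring

theorem NS.swap {z v : ℂ} {u : ℝ} (h : NS z v u) : NS v z u := by
  intro k e
  refine h.neg k ?_
  rw [pt_sub z v] at e
  linear_combination e

/-- parallel points -/
theorem NS.off_par {z v : ℂ} {u : ℝ} (h : NS z v u) (k : Fin 6) :
    Off z (pt z (u + (k.val : ℝ))) (pt v (u + (k.val : ℝ))) := by
  rw [pt_sub z v]
  refine ⟨fun e => h.neg k ?_, fun e => h k ?_⟩
  · linear_combination e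
  · linear_combination -e

theorem NS.off_succ {z v : ℂ} {u : ℝ} (h : NS z v u) (k : Fin 6) :
    Off (pt z (u + ((k + 1).val : ℝ))) (pt z (u + (k.val : ℝ))) (pt v (u + (k.val : ℝ))) := by
  have hs := sum_pt z u k
  rw [pt_sub z v]
  refine ⟨fun e => h.neg (k - 1) ?_, fun e => h (k - 1) ?_⟩
  · linear_combination hs + e
  · linear_combination hs - e

theorem NS.off_pred {z v : ℂ} {u : ℝ} (h : NS z v u) (k : Fin 6) :
    Off (pt z (u + ((k - 1).val : ℝ))) (pt z (u + (k.val : ℝ))) (pt v (u + (k.val : ℝ))) := by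
  have hs := sum_pt z u k
  rw [pt_sub z v]
  refine ⟨fun e => h.neg (k + 1) ?_, fun e => h (k + 1) ?_⟩
  · linear_combination hs + e
  · linear_combination hs - e

theorem dist_par {z v : ℂ} (hzv : dist z v = 1) (w : ℝ) : dist (pt z w) (pt v w) = 1 := by
  rw [pt_sub z v, dist_eq_norm, ← hzv, dist_eq_norm]
  congr 1; ring

theorem lz_disj : ∀ x y : Fin 4, x ≠ y → Nat.land (lz x) (lz y) = 0 := by decide

theorem lv_disj : ∀ x y : Fin 4, x ≠ y → Nat.land (lv x) (lv y) = 0 := by decide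

/-- the rules on one of the two circles -/
theorem circle_rules (h : Irr U T) {nm : Fin 6 → Fin 6} (hnm : Function.Surjective nm) {z v : ℂ}
    {u : ℝ} (hzv : dist z v = 1) (hns : NS z v u) {p q : Fin 6 → Op}
    (A : ∀ k : Fin 6, Pos T nm z (pt z (u + (k.val : ℝ))) (p k))
    (B : ∀ k : Fin 6, Pos T nm v (pt v (u + (k.val : ℝ))) (q k))
    (hd : ∀ k, Nat.land (p k).1 (p (k + 1)).1 = 0)
    (hd' : ∀ k, Nat.land (p k).2.1 (p (k + 1)).2.1 = 0)
    (hp : ∀ k, Nat.land (p k).1 (q k).1 = 0) (hp' : ∀ k, Nat.land (p k).2.1 (q k).2.1 = 0) {m : ℕ}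
    (hm : ∀ i : Fin 6, m.testBit i.val = true → nm i ∈ T z) :
    (∀ k, E (p k) (p (k + 1)) = true) ∧ (∀ k, E (p (k + 1)) (p k) = true) ∧
    (∀ k, E (p k) (q k) = true) ∧
    (∀ k, okP (p k) m (sm (p k) (p (k - 1))) (sm (p k) (p (k + 1))) (sm (p k) (q k)) = true) ∧
    (∀ k, okP (p k) m (sm (p k) (p (k + 1))) (sm (p k) (p (k - 1))) (sm (p k) (q k)) = true) := by
  have hs : ∀ k, E (p k) (p (k + 1)) = true := fun k =>
    E_of h hnm (A k) (A (k + 1)) (dist_succ z u k)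
      (off_cen (A k).cir (A (k + 1)).cir).symm (off_cen (A (k + 1)).cir (A k).cir).symm (hd k) (hd' k)
  have hs' : ∀ k, E (p (k + 1)) (p k) = true := fun k =>
    E_of h hnm (A (k + 1)) (A k) (by rw [dist_comm]; exact dist_succ z u k)
      (off_cen (A (k + 1)).cir (A k).cir).symm (off_cen (A k).cir (A (k + 1)).cir).symm
      (by rw [land_comm']; exact hd k) (by rw [land_comm']; exact hd' k)
  have hpr : ∀ k, E (p k) (q k) = true := fun k =>
    E_of h hnm (A k) (B k) (dist_par hzv _) (hns.off_par k) (hns.swap.off_par k) (hp k) (hp' k)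
  have hm1 : ∀ k, E (p k) (p (k - 1)) = true := by
    intro k
    have := hs' (k - 1)
    rwa [pm] at this
  refine ⟨hs, hs', hpr, fun k => ?_, fun k => ?_⟩
  · exact okP_of h hnm (A k) (A (k - 1)) (A (k + 1)) (B k) (hm1 k) (hs k) (hpr k)
      (dist_pred z u k) (dist_succ z u k) (dist_par hzv _) (off_pm z u k) (hns.off_pred k)
      (hns.off_succ k) (off_cen (A k).cir (A (k - 1)).cir) (off_cen (A k).cir (A (k + 1)).cir)
      (hns.off_par k).symm hm
  · exact okP_of h hnm (A k) (A (k + 1)) (A (k - 1)) (B k) (hs k) (hm1 k) (hpr k)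
      (dist_succ z u k) (dist_pred z u k) (dist_par hzv _) (off_pm z u k).symm (hns.off_succ k)
      (hns.off_pred k) (off_cen (A k).cir (A (k + 1)).cir) (off_cen (A k).cir (A (k - 1)).cir)
      (hns.off_par k).symm hm

theorem bits15 : ∀ i : Fin 6, (15 : ℕ).testBit i.val = true → i = 0 ∨ i = 1 ∨ i = 2 ∨ i = 3 := by
  decide

theorem bits23 : ∀ i : Fin 6, (23 : ℕ).testBit i.val = true → i = 0 ∨ i = 1 ∨ i = 2 ∨ i = 4 := by
  decide

/-- **The options of the twelve positions.** -/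
theorem geo {C : Ctr U T z a b c d e f} {C' : Ctr U T v a c b e d f} {u : ℝ}
    {h h' : Fin 6 × Fin 2 → Fin 4} (M : Mv C C' u h h') (hns : NS z v u) :
    ∃ o, Geo o ∧ Of o h h' := by
  have hsurj := nmB_surj C
  have hinj := nmB_inj C
  have hz : ∀ k : Fin 6, ∃ t, Pos T (nmB a b c d e f) z (pt z (u + (k.val : ℝ)))
      (lz (h (k, 0)), lz (h' (k, 0)), t) ∧ (lz (h (k, 0)), lz (h' (k, 0)), t) ∈ oz := fun k =>
    exists_opt hinj hsurj C (lz_col a b c d e f) sing_oz fin_oz (dist_pt z _) (M.h3 0 k)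
      (M.hs.1 (k, 0)) (M.hs'.1 (k, 0))
  have hv : ∀ k : Fin 6, ∃ t, Pos T (nmB a b c d e f) v (pt v (u + (k.val : ℝ)))
      (lv (h (k, 1)), lv (h' (k, 1)), t) ∧ (lv (h (k, 1)), lv (h' (k, 1)), t) ∈ ov := fun k =>
    exists_opt hinj hsurj C' (lv_col a b c d e f) sing_ov fin_ov (dist_pt v _) (M.h3 1 k)
      (M.hs.1 (k, 1)) (M.hs'.1 (k, 1))
  choose tz hz hz' using hz
  choose tv hv hv' using hv
  have hvz : dist v z = 1 := by rw [dist_comm]; exact M.hd
  have L := fun k => land_sel C C' M.hd M.hs k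
  have L' := fun k => land_sel C C' M.hd M.hs' k
  obtain ⟨a1, a2, a3, a4, a5⟩ := circle_rules C.irr hsurj M.hd hns hz hv
    (fun k => lz_disj _ _ (ne_sel C C' M.hs 0 k)) (fun k => lz_disj _ _ (ne_sel C C' M.hs' 0 k))
    L L' (m := 15) (by
      intro i hi
      rw [C.pal]
      rcases bits15 i hi with rfl | rfl | rfl | rfl
      exacts [Or.inl rfl, Or.inr (Or.inl rfl), Or.inr (Or.inr (Or.inl rfl)),
        Or.inr (Or.inr (Or.inr rfl))])
  obtain ⟨b1, b2, b3, b4, b5⟩ := circle_rules C.irr hsurj hvz hns.swap hv hz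
    (fun k => lv_disj _ _ (ne_sel C C' M.hs 1 k)) (fun k => lv_disj _ _ (ne_sel C C' M.hs' 1 k))
    (fun k => by rw [land_comm']; exact L k) (fun k => by rw [land_comm']; exact L' k) (m := 23) (by
      intro i hi
      rw [C'.pal]
      rcases bits23 i hi with rfl | rfl | rfl | rfl
      exacts [Or.inl rfl, Or.inr (Or.inr (Or.inl rfl)), Or.inr (Or.inl rfl),
        Or.inr (Or.inr (Or.inr rfl))])
  exact ⟨fun k => ((lz (h (k, 0)), lz (h' (k, 0)), tz k), (lv (h (k, 1)), lv (h' (k, 1)), tv k)),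
    ⟨hz', hv', a3, b3, a1, a2, b1, b2, a4, a5, b4, b5⟩,
    ⟨fun _ => rfl, fun _ => rfl, fun _ => rfl, fun _ => rfl⟩⟩

/-- **The moves of a beta pair.** -/
theorem beta_step {C : Ctr U T z a b c d e f} {C' : Ctr U T v a c b e d f} {u : ℝ}
    {h h' : Fin 6 × Fin 2 → Fin 4} (M : Mv C C' u h h') (hns : NS z v u) (hne : h ≠ h') :
    Words.Trie.StepB (wB h) (wB h') := by
  obtain ⟨o, G, W⟩ := geo M hns
  exact M.step hne G W

theorem fam_eq (F : Fam U T (Fin 2)) (hc0 : F.cen 0 = z) (hc1 : F.cen 1 = v)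
    (hn0 : F.nm 0 = ![a, b, c, d, e, f]) (hn1 : F.nm 1 = ![a, c, b, e, d, f]) :
    ∃ (C : Ctr U T z a b c d e f) (C' : Ctr U T v a c b e d f), F = FB C C' := by
  have C := F.ctr 0
  have C' := F.ctr 1
  rw [hc0, hn0] at C
  rw [hc1, hn1] at C'
  refine ⟨C, C', ?_⟩
  obtain ⟨cen, nm, ctr⟩ := F
  have e1 : cen = ![z, v] := by
    funext s
    fin_cases s
    exacts [hc0, hc1]
  have e2 : nm = ![![a, b, c, d, e, f], ![a, c, b, e, d, f]] := by
    funext s
    fin_cases s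
    exacts [hn0, hn1]
  subst e1 e2
  rfl

/-- **The moves of a beta pair**, for a family with two members. -/
theorem beta_step' (F : Fam U T (Fin 2)) (hc0 : F.cen 0 = z) (hc1 : F.cen 1 = v)
    (hn0 : F.nm 0 = ![a, b, c, d, e, f]) (hn1 : F.nm 1 = ![a, c, b, e, d, f])
    (hzv : dist z v = 1) {u : ℝ}
    (h3 : ∀ k : Fin 6, (T (pt z (u + (k.val : ℝ)))).ncard ≤ 3)
    (h3' : ∀ k : Fin 6, (T (pt v (u + (k.val : ℝ)))).ncard ≤ 3)
    (hns : ∀ k : Fin 6, pt z (u + (k.val : ℝ)) ≠ v) {h h' : Fin 6 × Fin 2 → Fin 4}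
    (hs : Words.Scc.Sel F.R (Words.H324.PalX F.X u) h)
    (hs' : Words.Scc.Sel F.R (Words.H324.PalX F.X u) h') (hne : h ≠ h')
    (hsc : Words.Scc.SC F.R h h') : Words.Trie.StepB (wB h) (wB h') := by
  obtain ⟨C, C', rfl⟩ := fam_eq F hc0 hc1 hn0 hn1
  refine beta_step (C := C) (C' := C') (u := u) ⟨fun s k => ?_, hzv, hs, hs', hsc⟩ hns hne
  have h01 : ∀ s : Fin 2, s = 0 ∨ s = 1 := by decide
  rcases h01 s with rfl | rfl
  exacts [h3 k, h3' k]

/-- the words of the selections are legal -/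
theorem beta_leg (F : Fam U T (Fin 2)) (hc0 : F.cen 0 = z) (hc1 : F.cen 1 = v)
    (hn0 : F.nm 0 = ![a, b, c, d, e, f]) (hn1 : F.nm 1 = ![a, c, b, e, d, f])
    (hzv : dist z v = 1) {u : ℝ}
    (h3 : ∀ k : Fin 6, (T (pt z (u + (k.val : ℝ)))).ncard ≤ 3)
    (h3' : ∀ k : Fin 6, (T (pt v (u + (k.val : ℝ)))).ncard ≤ 3) {h : Fin 6 × Fin 2 → Fin 4}
    (hs : Words.Scc.Sel F.R (Words.H324.PalX F.X u) h) : Words.Trie.LegB (wB h) := by
  obtain ⟨C, C', rfl⟩ := fam_eq F hc0 hc1 hn0 hn1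
  refine legB (C := C) (C' := C') hzv (fun s k => ?_) hs
  have h01 : ∀ s : Fin 2, s = 0 ∨ s = 1 := by decide
  rcases h01 s with rfl | rfl
  exacts [h3 k, h3' k]

end Vale.Agent.P032.S5.H724
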