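import Vale.Agent.P032.S5.H724.BetaMoves

/-!
# P032: masks of palettes, the rules between points at distance one as rules of the masks
-/

open Set Filter Topology Metric

noncomputable section

namespace Vale.Agent.P032.S5.H724

open Tab
open Vale.Agent.P032.Six Vale.Agent.P032.S5.H767

variable {U : Fin 6 → Set ℂ} {T : ℂ → Set (Fin 6)}

/-- `t` is the mask of `S` -/
def Msk (nm : Fin 6 → Fin 6) (S : Set (Fin 6)) (t : ℕ) : Prop :=
  t < 64 ∧ ∀ i : Fin 6, t.testBit i.val = true ↔ nm i ∈ S

theorem exists_bits : ∀ s : Fin 6 → Bool, ∃ t : Fin 64, ∀ i : Fin 6, t.val.testBit i.val = s i := by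
  decide +kernel

theorem exists_msk (nm : Fin 6 → Fin 6) (S : Set (Fin 6)) : ∃ t, Msk nm S t := by
  classical
  obtain ⟨t, ht⟩ := exists_bits fun i => decide (nm i ∈ S)
  refine ⟨t.val, t.isLt, fun i => ?_⟩
  rw [ht i, decide_eq_true_iff]

theorem land_zero_of {x y : ℕ} (hx : x < 64)
    (h : ∀ i : Fin 6, x.testBit i.val = true → y.testBit i.val = true → False) :
    Nat.land x y = 0 := by
  show x &&& y = 0
  refine Nat.eq_of_testBit_eq fun i => ?_
  rw [Nat.testBit_and, Nat.zero_testBit]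
  by_cases hi : i < 6
  · have := h ⟨i, hi⟩
    by_contra hcon
    rw [Bool.not_eq_false, Bool.and_eq_true] at hcon
    exact this hcon.1 hcon.2
  · have : x.testBit i = false := by
      refine Nat.testBit_eq_false_of_lt (lt_of_lt_of_le hx ?_)
      calc 64 = 2 ^ 6 := by norm_num
        _ ≤ 2 ^ i := Nat.pow_le_pow_right (by norm_num) (by omega)
    rw [this, Bool.false_and]

/-- a position: its centre, its point, its option -/
structure Pos (T : ℂ → Set (Fin 6)) (nm : Fin 6 → Fin 6) (cen y : ℂ) (p : Op) : Prop where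
  cir : dist y cen = 1
  n3 : (T y).ncard ≤ 3
  alt : (p.2.2 = 0 ∧ p.1 < 64 ∧
      ∀ i : Fin 6, p.1.testBit i.val = true → ∀ᶠ q in 𝓝[sphere cen 1] y, nm i ∈ T q) ∨
    (p.2.2 ≠ 0 ∧ Msk nm (T y) p.2.2)
  two : p.2.2 ≠ 0 → 2 ≤ (T y).ncard

/-- `w` is not on the line through `y` and `c`, as far as points at distance one are concerned -/
def Off (c y w : ℂ) : Prop := w ≠ c ∧ w + c ≠ 2 * y

theorem Off.symm {c y w : ℂ} (h : Off c y w) : Off w y c :=
  ⟨fun e => h.1 e.symm, fun e => h.2 (by rw [add_comm]; exact e)⟩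

variable {nm : Fin 6 → Fin 6} {cen cen' y y' y'' : ℂ} {p q r : Op}

theorem Pos.free (h : Irr U T) (A : Pos T nm cen y p) (h0 : p.2.2 = 0) (hyy : dist y y' = 1)
    (ho : Off cen y y') {i : Fin 6} (hi : p.1.testBit i.val = true) : nm i ∉ T y' := by
  rcases A.alt with ⟨-, -, h1⟩ | ⟨h1, -⟩
  · intro h2
    exact line_free h A.cir (h1 i hi) hyy ho.1 ho.2 (h.sub _ h2)
  · exact absurd h0 h1

theorem Pos.lt (A : Pos T nm cen y p) : p.2.2 < 64 := by
  rcases A.alt with ⟨h1, -, -⟩ | ⟨-, h1⟩
  · rw [h1]; norm_num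
  · exact h1.1

/-- the colours of the palette mask are in the palette -/
theorem Pos.mem (A : Pos T nm cen y p) {i : Fin 6} (hi : p.2.2.testBit i.val = true) :
    nm i ∈ T y := by
  rcases A.alt with ⟨h1, -, -⟩ | ⟨-, h1⟩
  · rw [h1, Nat.zero_testBit] at hi
    exact absurd hi (by decide)
  · exact (h1.2 i).1 hi

theorem not_sub_mask (h : Irr U T) (hnm : Function.Surjective nm) (A : Pos T nm cen y p)
    (B : Pos T nm cen' y' q) (hp : p.2.2 ≠ 0) (hq : q.2.2 ≠ 0) (hyy : dist y y' = 1) :
    Nat.beq (Nat.land p.2.2 q.2.2) p.2.2 = false := by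
  obtain ⟨x, hx, hx'⟩ := h.not_sub' hyy B.n3
  obtain ⟨i, rfl⟩ := hnm x
  have a1 := (A.alt.resolve_left fun k => hp k.1).2
  have b1 := (B.alt.resolve_left fun k => hq k.1).2
  have k1 : p.2.2.testBit i.val = true := (a1.2 i).2 hx
  have k2 : q.2.2.testBit i.val = false := by
    by_contra hcon
    exact hx' ((b1.2 i).1 (by simpa using hcon))
  cases hb : Nat.beq (Nat.land p.2.2 q.2.2) p.2.2 with
  | false => rfl
  | true =>
    have e := Nat.eq_of_beq_eq_true hb
    have e' : p.2.2 &&& q.2.2 = p.2.2 := e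
    rw [← e', Nat.testBit_and, k2, Bool.and_false] at k1
    exact absurd k1 (by decide)

theorem land_comm' (x y : ℕ) : Nat.land x y = Nat.land y x := Nat.land_comm _ _

/-- **the rule `E`** -/
theorem E_of (h : Irr U T) (hnm : Function.Surjective nm) (A : Pos T nm cen y p)
    (B : Pos T nm cen' y' q) (hyy : dist y y' = 1) (ho : Off cen y y') (ho' : Off cen' y' y)
    (hd : Nat.land p.1 q.1 = 0) (hd' : Nat.land p.2.1 q.2.1 = 0) : E p q = true := by
  have hyy' : dist y' y = 1 := by rw [dist_comm]; exact hyy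
  unfold E
  rw [hd, hd', Bool.and_eq_true, Bool.and_eq_true]
  refine ⟨rfl, rfl, ?_⟩
  by_cases hp : p.2.2 = 0
  · rw [hp, show Nat.beq 0 0 = true from rfl, cond_true]
    have : Nat.land p.1 q.2.2 = 0 := by
      rcases A.alt with ⟨-, h1, -⟩ | ⟨h1, -⟩
      · exact land_zero_of h1 fun i h2 h3 => A.free h hp hyy ho h2 (B.mem h3)
      · exact absurd hp h1
    rw [this]; rfl
  · have e1 : Nat.beq p.2.2 0 = false := by
      cases hb : Nat.beq p.2.2 0 with
      | false => rfl
      | true => exact absurd (Nat.eq_of_beq_eq_true hb) hp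
    rw [e1, cond_false]
    by_cases hq : q.2.2 = 0
    · rw [hq, show Nat.beq 0 0 = true from rfl, cond_true]
      have : Nat.land q.1 p.2.2 = 0 := by
        rcases B.alt with ⟨-, h1, -⟩ | ⟨h1, -⟩
        · exact land_zero_of h1 fun i h2 h3 => B.free h hq hyy' ho' h2 (A.mem h3)
        · exact absurd hq h1
      rw [this]; rfl
    · have e2 : Nat.beq q.2.2 0 = false := by
        cases hb : Nat.beq q.2.2 0 with
        | false => rfl
        | true => exact absurd (Nat.eq_of_beq_eq_true hb) hq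
      rw [e2, cond_false, not_sub_mask h hnm A B hp hq hyy, land_comm' p.2.2 q.2.2,
        not_sub_mask h hnm B A hq hp hyy']
      rfl

/-! ### The codes -/

theorem sm_low {p q : Op} (he : E p q = true) (hp : p.2.2 < 64) :
    Nat.land (sm p q) 63 = Nat.land p.2.2 q.2.2 := by
  have hl : p.2.2 &&& q.2.2 < 64 := lt_of_le_of_lt Nat.and_le_left hp
  unfold sm
  rw [he, cond_true]
  show (256 + (p.2.2 &&& q.2.2) + (_ + _)) &&& 63 = p.2.2 &&& q.2.2
  have e : ∀ n : ℕ, n &&& 63 = n % 64 := fun n => Nat.and_two_pow_sub_one_eq_mod n 6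
  rw [e]
  cases Nat.beq (Nat.land q.1 p.2.1) 0 <;> cases Nat.beq (Nat.land p.1 q.2.1) 0 <;>
    simp only [cond_true, cond_false] <;> omega

theorem sm_bit {p q : Op} (he : E p q = true) (hp : p.2.2 < 64) (i : Fin 6) :
    (sm p q).testBit i.val = (p.2.2.testBit i.val && q.2.2.testBit i.val) := by
  have h1 : (sm p q) &&& 63 = p.2.2 &&& q.2.2 := sm_low he hp
  have h2 := congrArg (fun n => n.testBit i.val) h1
  simp only [Nat.testBit_and] at h2
  have h3 : (63 : ℕ).testBit i.val = true := by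
    have : ∀ i : Fin 6, (63 : ℕ).testBit i.val = true := by decide
    exact this i
  rw [h3, Bool.and_true] at h2
  exact h2

theorem one_spec : ∀ x : Fin 64, one x.val = true → ∃ i : Fin 6, x.val = 2 ^ i.val := by
  decide +kernel

theorem pow_land {i : Fin 6} {x : ℕ} (h : x.testBit i.val = false) : Nat.land (2 ^ i.val) x = 0 := by
  refine land_zero_of ?_ ?_
  · have : ∀ i : Fin 6, 2 ^ i.val < 64 := by decide
    exact this i
  · intro j h1 h2
    have : ∀ i j : Fin 6, (2 ^ i.val).testBit j.val = true → i = j := by decide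
    have e := this i j h1
    subst e
    rw [h] at h2
    exact absurd h2 (by decide)

/-- the rule `V` -/
theorem Vk_of (h : Irr U T) (hnm : Function.Surjective nm) {c1 c2 y1 y2 w : ℂ} {p1 p2 : Op}
    (A : Pos T nm cen y p) (B : Pos T nm c1 y1 p1) (C : Pos T nm c2 y2 p2) (hp : p.2.2 ≠ 0)
    (e1 : E p p1 = true) (e2 : E p p2 = true) (d1 : dist y y1 = 1) (d2 : dist y y2 = 1)
    (o2 : Off y1 y y2) (hw : dist y w = 1) (ow : Off y1 y w) {m : ℕ}
    (hm : ∀ i : Fin 6, m.testBit i.val = true → nm i ∈ T w) :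
    Vk p.2.2 m (sm p p1) (sm p p2) = true := by
  unfold Vk
  rw [Bool.or_eq_true, Bool.not_eq_true']
  cases ho : one (Nat.xor p.2.2 (Nat.land (sm p p1) 63)) with
  | false => exact Or.inl rfl
  | true =>
    right
    have a1 := (A.alt.resolve_left fun k => hp k.1).2
    have hx64 : Nat.xor p.2.2 (Nat.land (sm p p1) 63) < 64 := by
      rw [sm_low e1 A.lt]
      exact Nat.xor_lt_two_pow (n := 6) A.lt (lt_of_le_of_lt Nat.and_le_left A.lt)
    obtain ⟨i, hi⟩ := one_spec ⟨_, hx64⟩ ho
    have hi : Nat.xor p.2.2 (Nat.land (sm p p1) 63) = 2 ^ i.val := hi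
    have hb : ∀ j : Fin 6, (2 ^ i.val).testBit j.val =
        (p.2.2.testBit j.val != (p.2.2.testBit j.val && p1.2.2.testBit j.val)) := by
      intro j
      rw [← hi, sm_low e1 A.lt]
      show (p.2.2 ^^^ (p.2.2 &&& p1.2.2)).testBit j.val = _
      rw [Nat.testBit_xor, Nat.testBit_and]
    have hii : p.2.2.testBit i.val = true ∧ p1.2.2.testBit i.val = false := by
      have := hb i
      rw [Nat.testBit_two_pow_self] at this
      revert this
      cases p.2.2.testBit i.val <;> cases p1.2.2.testBit i.val <;> decide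
    -- the palette of `p1` is known
    have hp1 : p1.2.2 ≠ 0 := by
      intro h0
      -- then `p.2.2` has only one bit
      obtain ⟨x, hx, hx'⟩ := h.not_sub' d1 B.n3
      have : ∀ j : Fin 6, p.2.2.testBit j.val = true → j = i := by
        intro j hj
        have h2 := hb j
        rw [h0, Nat.zero_testBit, Bool.and_false, hj] at h2
        have : ∀ i j : Fin 6, (2 ^ i.val).testBit j.val = true → j = i := by decide
        exact this i j (by rw [h2]; rfl)
      -- all colours of `y` are `nm i`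
      have hsub : T y ⊆ {nm i, nm i} := by
        intro x hx
        obtain ⟨j, rfl⟩ := hnm x
        have := this j ((a1.2 j).2 hx)
        rw [this]
        exact Or.inl rfl
      have hle := Set.ncard_le_ncard hsub (Set.toFinite _)
      have h2 := A.two hp
      rw [Set.pair_eq_singleton, Set.ncard_singleton] at hle
      omega
    have b1 := (B.alt.resolve_left fun k => hp1 k.1).2
    have hsub : T y ⊆ insert (nm i) (T y1) := by
      intro x hx
      obtain ⟨j, rfl⟩ := hnm x
      by_cases hji : j = i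
      · exact Or.inl (by rw [hji])
      · right
        have h1 := (a1.2 j).2 hx
        have h2 := hb j
        have : ∀ i j : Fin 6, j ≠ i → (2 ^ i.val).testBit j.val = false := by decide
        rw [this i j hji, h1] at h2
        refine (b1.2 j).1 ?_
        revert h2
        cases p1.2.2.testBit j.val <;> decide
    have hX : ∀ w, dist y w = 1 → nm i ∈ T w → w = y1 ∨ w + y1 = 2 * y := fun w hw hxw =>
      h.lemmaX d1 B.n3 hsub hw (h.sub _ hxw)
    rw [hi, Bool.and_eq_true]
    constructor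
    · rw [pow_land]; · rfl
      by_contra hcon
      rcases hX w hw (hm i (by simpa using hcon)) with h3 | h3
      · exact ow.1 h3
      · exact ow.2 h3
    · rw [pow_land]; · rfl
      by_contra hcon
      have h3 : (sm p p2).testBit i.val = true := by simpa using hcon
      rw [sm_bit e2 A.lt, Bool.and_eq_true] at h3
      rcases hX y2 d2 (C.mem h3.2) with h4 | h4
      · exact o2.1 h4
      · exact o2.2 h4

theorem two_spec : ∀ x : Fin 64, Tab.two x.val = true → ∃ i j : Fin 6,
    ∀ k : Fin 6, x.val.testBit k.val = true → k = i ∨ k = j := by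
  decide +kernel

/-- the rule `LB` -/
theorem LBk_of (h : Irr U T) (hnm : Function.Surjective nm) {c1 c2 y1 y2 : ℂ} {p1 p2 : Op}
    (A : Pos T nm cen y p) (B : Pos T nm c1 y1 p1) (C : Pos T nm c2 y2 p2) (hp : p.2.2 ≠ 0)
    (e1 : E p p1 = true) (e2 : E p p2 = true) (d1 : dist y y1 = 1) (d2 : dist y y2 = 1)
    (o2 : Off y1 y y2) : LBk p.2.2 (sm p p1) (sm p p2) = true := by
  unfold LBk
  rw [Bool.or_eq_true, Bool.not_eq_true', sm_low e1 A.lt, sm_low e2 A.lt]
  cases ht : Tab.two p.2.2 with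
  | false => exact Or.inl rfl
  | true =>
    right
    have a1 := (A.alt.resolve_left fun k => hp k.1).2
    obtain ⟨a, b, hab⟩ := two_spec ⟨_, A.lt⟩ ht
    have hab : ∀ k : Fin 6, p.2.2.testBit k.val = true → k = a ∨ k = b := hab
    have key : ∀ i j : Fin 6, p.2.2.testBit i.val = true → p1.2.2.testBit i.val = true →
        p.2.2.testBit j.val = true → p2.2.2.testBit j.val = true → i = j := by
      intro i j hi hi1 hj hj2
      by_contra hij
      have hsub : T y ⊆ {nm i, nm j} := by
        intro x hx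
        obtain ⟨k, rfl⟩ := hnm x
        have hk := hab k ((a1.2 k).2 hx)
        have hi' := hab i hi
        have hj' := hab j hj
        have : k = i ∨ k = j := by
          rcases hk with rfl | rfl <;> rcases hi' with rfl | rfl <;> rcases hj' with rfl | rfl <;>
            first | exact Or.inl rfl | exact Or.inr rfl | exact absurd rfl hij
        rcases this with rfl | rfl
        · exact Or.inl rfl
        · exact Or.inr rfl
      rcases h.lemmaB hsub d1 d2 (h.sub _ (B.mem hi1)) (h.sub _ (C.mem hj2)) with h1 | h1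
      · exact o2.1 h1
      · exact o2.2 h1
    by_cases h1 : p.2.2 &&& p1.2.2 = 0
    · rw [Bool.or_eq_true]; left
      rw [show Nat.land p.2.2 p1.2.2 = 0 from h1]; rfl
    by_cases h2 : p.2.2 &&& p2.2.2 = 0
    · rw [Bool.or_eq_true, Bool.or_eq_true]; right; left
      rw [show Nat.land p.2.2 p2.2.2 = 0 from h2]; rfl
    have hex : ∀ {x y : ℕ}, x < 64 → x &&& y ≠ 0 →
        ∃ i : Fin 6, x.testBit i.val = true ∧ y.testBit i.val = true := by
      intro x y hx hne
      by_contra hcon
      push Not at hcon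
      exact hne (land_zero_of hx fun i h3 h4 => hcon i h3 h4)
    obtain ⟨i, hi, hi1⟩ := hex A.lt h1
    obtain ⟨j, hj, hj2⟩ := hex A.lt h2
    have e : Nat.land p.2.2 p1.2.2 = Nat.land p.2.2 p2.2.2 := by
      show p.2.2 &&& p1.2.2 = p.2.2 &&& p2.2.2
      refine Nat.eq_of_testBit_eq fun n => ?_
      rw [Nat.testBit_and, Nat.testBit_and]
      by_cases hn : n < 6
      · have k1 := fun g1 g2 => key ⟨n, hn⟩ j g1 g2 hj hj2
        have k2 := fun g1 g2 => key i ⟨n, hn⟩ hi hi1 g1 g2
        rw [Bool.eq_iff_iff, Bool.and_eq_true, Bool.and_eq_true]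
        constructor
        · rintro ⟨g1, g2⟩
          have := k1 g1 g2
          subst this
          exact ⟨hj, hj2⟩
        · rintro ⟨g1, g2⟩
          have := k2 g1 g2
          subst this
          exact ⟨hi, hi1⟩
      · have : p.2.2.testBit n = false := by
          refine Nat.testBit_eq_false_of_lt (lt_of_lt_of_le A.lt ?_)
          calc 64 = 2 ^ 6 := by norm_num
            _ ≤ 2 ^ n := Nat.pow_le_pow_right (by norm_num) (by omega)
        rw [this]; rfl
    rw [Bool.or_eq_true, Bool.or_eq_true]; right; right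
    rw [e]; exact Nat.beq_refl _

/-- **the rules at a position** -/
theorem okP_of (h : Irr U T) (hnm : Function.Surjective nm) {c1 c2 c3 y1 y2 y3 : ℂ}
    {p1 p2 p3 : Op} (A : Pos T nm cen y p) (B1 : Pos T nm c1 y1 p1) (B2 : Pos T nm c2 y2 p2)
    (B3 : Pos T nm c3 y3 p3) (e1 : E p p1 = true) (e2 : E p p2 = true) (e3 : E p p3 = true)
    (d1 : dist y y1 = 1) (d2 : dist y y2 = 1) (d3 : dist y y3 = 1) (o12 : Off y1 y y2)
    (o13 : Off y1 y y3) (o23 : Off y2 y y3) (oc1 : Off y1 y cen) (oc2 : Off y2 y cen)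
    (oc3 : Off y3 y cen) {m : ℕ} (hm : ∀ i : Fin 6, m.testBit i.val = true → nm i ∈ T cen) :
    okP p m (sm p p1) (sm p p2) (sm p p3) = true := by
  unfold okP
  rw [Bool.or_eq_true]
  by_cases hp : p.2.2 = 0
  · left; rw [hp]; rfl
  right
  rw [Vk_of h hnm A B1 B2 hp e1 e2 d1 d2 o12 A.cir oc1 hm,
    Vk_of h hnm A B1 B3 hp e1 e3 d1 d3 o13 A.cir oc1 hm,
    Vk_of h hnm A B2 B1 hp e2 e1 d2 d1 o12.symm A.cir oc2 hm,
    Vk_of h hnm A B2 B3 hp e2 e3 d2 d3 o23 A.cir oc2 hm,
    Vk_of h hnm A B3 B1 hp e3 e1 d3 d1 o13.symm A.cir oc3 hm,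
    Vk_of h hnm A B3 B2 hp e3 e2 d3 d2 o23.symm A.cir oc3 hm,
    LBk_of h hnm A B1 B2 hp e1 e2 d1 d2 o12, LBk_of h hnm A B1 B3 hp e1 e3 d1 d3 o13,
    LBk_of h hnm A B2 B3 hp e2 e3 d2 d3 o23]
  rfl

end Vale.Agent.P032.S5.H724
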