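import Vale.Agent.P032.S5.H724.TabA

/-!
# P032: adjacent changed columns (kernel tables and their meaning)
-/

namespace Vale.Agent.P032.S5.H724.Tab

set_option maxRecDepth 100000 in
theorem tz_ok : (tz.all fun e => chkT 15 oz ov e) = true := by decide +kernel

set_option maxRecDepth 100000 in
theorem tv_ok : (tv.all fun e => chkT 23 ov oz e) = true := by decide +kernel

set_option maxRecDepth 100000 in
theorem chk1_ok : chk1 = true := by decide +kernel

set_option maxRecDepth 100000 in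
theorem chk2_ok : chk2 = true := by decide +kernel

set_option maxRecDepth 100000 in
theorem chk3_ok : chk3 = true := by decide +kernel

set_option maxRecDepth 100000 in
theorem chk4_ok : chk4 = true := by decide +kernel

theorem oz_tz : oz = tz.map (fun e => e.1) := rfl

theorem ov_tv : ov = tv.map (fun e => e.1) := rfl

theorem mem_iff {x : ℕ} : ∀ {l : List ℕ}, mem x l = true ↔ x ∈ l
  | [] => by simp [mem]
  | y :: l => by
    unfold mem
    cases h : Nat.beq x y with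
    | true =>
      have := Nat.eq_of_beq_eq_true h
      simp [this]
    | false =>
      have h1 : x ≠ y := by
        rintro rfl
        rw [Nat.beq_refl] at h
        exact absurd h (by decide)
      simp only [cond_false, List.mem_cons, h1, false_or]
      exact mem_iff

theorem beqO_iff {p q : Op} : beqO p q = true ↔ p = q := by
  unfold beqO
  rw [Bool.and_eq_true, Bool.and_eq_true]
  constructor
  · rintro ⟨h1, h2, h3⟩
    exact Prod.ext (Nat.eq_of_beq_eq_true h1) (Prod.ext (Nat.eq_of_beq_eq_true h2)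
      (Nat.eq_of_beq_eq_true h3))
  · rintro rfl
    exact ⟨Nat.beq_refl _, Nat.beq_refl _, Nat.beq_refl _⟩

theorem beqC_iff {p q : Op × Op} : beqC p q = true ↔ p = q := by
  unfold beqC
  rw [Bool.and_eq_true, beqO_iff, beqO_iff]
  constructor
  · rintro ⟨h1, h2⟩
    exact Prod.ext h1 h2
  · rintro rfl
    exact ⟨rfl, rfl⟩

theorem sm_ne {p q : Op} (h : E p q = true) : Nat.beq (sm p q) 0 = false := by
  unfold sm
  rw [h, cond_true]
  cases hb : Nat.beq (Nat.add (Nat.add 256 (Nat.land p.2.2 q.2.2))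
      (Nat.add (bif Nat.beq (Nat.land q.1 p.2.1) 0 then 0 else 64)
      (bif Nat.beq (Nat.land p.1 q.2.1) 0 then 0 else 128))) 0 with
  | false => rfl
  | true =>
    have h1 := Nat.eq_of_beq_eq_true hb
    have h2 : 256 + Nat.land p.2.2 q.2.2 + (_ + _) = 0 := h1
    omega

/-- the local rules of the twelve positions -/
structure Loc (o : Fin 6 → Op × Op) : Prop where
  mz : ∀ k, (o k).1 ∈ oz
  mv : ∀ k, (o k).2 ∈ ov
  ep : ∀ k, E (o k).1 (o k).2 = true
  ep' : ∀ k, E (o k).2 (o k).1 = true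
  ez : ∀ k, E (o k).1 (o (k + 1)).1 = true
  ez' : ∀ k, E (o (k + 1)).1 (o k).1 = true
  ev : ∀ k, E (o k).2 (o (k + 1)).2 = true
  ev' : ∀ k, E (o (k + 1)).2 (o k).2 = true
  okz : ∀ k, okT (o k).1 15 (sm (o k).1 (o (k - 1)).1) (sm (o k).1 (o (k + 1)).1)
    (sm (o k).1 (o k).2) = true
  okz' : ∀ k, okT (o k).1 15 (sm (o k).1 (o (k + 1)).1) (sm (o k).1 (o (k - 1)).1)
    (sm (o k).1 (o k).2) = true
  okv : ∀ k, okT (o k).2 23 (sm (o k).2 (o (k - 1)).2) (sm (o k).2 (o (k + 1)).2)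
    (sm (o k).2 (o k).1) = true
  okv' : ∀ k, okT (o k).2 23 (sm (o k).2 (o (k + 1)).2) (sm (o k).2 (o (k - 1)).2)
    (sm (o k).2 (o k).1) = true

theorem chkT_spec {cen : ℕ} {ops oth : List Op} {e : En} (h : chkT cen ops oth e = true)
    {a b w : Op} (ha : a ∈ ops) (hb : b ∈ ops) (hw : w ∈ oth) (ea : E e.1 a = true)
    (eb : E e.1 b = true) (ew : E e.1 w = true)
    (hok : okT e.1 cen (sm e.1 a) (sm e.1 b) (sm e.1 w) = true) :
    sm e.1 a ∈ e.2.1 ∧ al (sm e.1 a) (sm e.1 w) e.2.2.2 = true := by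
  unfold chkT at h
  rw [Bool.and_eq_true, Bool.and_eq_true] at h
  obtain ⟨h1, h2, h3⟩ := h
  have m1 : ∀ a ∈ ops, E e.1 a = true → sm e.1 a ∈ e.2.1 := by
    intro a ha ea
    have := List.all_eq_true.1 h1 a ha
    rw [sm_ne ea, Bool.false_or] at this
    exact mem_iff.1 this
  have m2 : sm e.1 w ∈ e.2.2.1 := by
    have := List.all_eq_true.1 h2 w hw
    rw [sm_ne ew, Bool.false_or] at this
    exact mem_iff.1 this
  refine ⟨m1 a ha ea, ?_⟩
  have h4 := List.all_eq_true.1 (List.all_eq_true.1 h3 _ (m1 a ha ea)) _ m2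
  rw [Bool.or_eq_true] at h4
  rcases h4 with h4 | h4
  · exact h4
  · have h5 := List.all_eq_true.1 h4 _ (m1 b hb eb)
    rw [hok] at h5
    exact absurd h5 (by decide)

variable {o : Fin 6 → Op × Op}

theorem pm (k : Fin 6) : k - 1 + 1 = k := by revert k; decide

theorem Loc.ezm (L : Loc o) (k : Fin 6) : E (o k).1 (o (k - 1)).1 = true := by
  have := L.ez' (k - 1)
  rwa [pm] at this

theorem Loc.evm (L : Loc o) (k : Fin 6) : E (o k).2 (o (k - 1)).2 = true := by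
  have := L.ev' (k - 1)
  rwa [pm] at this

/-- the entry of `z` -/
theorem Loc.entz (L : Loc o) (k : Fin 6) : ∃ e ∈ tz, e.1 = (o k).1 ∧
    (sm e.1 (o (k - 1)).1 ∈ e.2.1 ∧ al (sm e.1 (o (k - 1)).1) (sm e.1 (o k).2) e.2.2.2 = true) ∧
    (sm e.1 (o (k + 1)).1 ∈ e.2.1 ∧
      al (sm e.1 (o (k + 1)).1) (sm e.1 (o k).2) e.2.2.2 = true) := by
  have h := L.mz k
  rw [oz_tz, List.mem_map] at h
  obtain ⟨e, he, h1⟩ := h
  have hc := List.all_eq_true.1 tz_ok e he
  refine ⟨e, he, h1, ?_, ?_⟩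
  · refine chkT_spec hc (L.mz (k - 1)) (L.mz (k + 1)) (L.mv k) ?_ ?_ ?_ ?_ <;> rw [h1]
    exacts [L.ezm k, L.ez k, L.ep k, L.okz k]
  · refine chkT_spec hc (L.mz (k + 1)) (L.mz (k - 1)) (L.mv k) ?_ ?_ ?_ ?_ <;> rw [h1]
    exacts [L.ez k, L.ezm k, L.ep k, L.okz' k]

/-- the entry of `v` -/
theorem Loc.entv (L : Loc o) (k : Fin 6) : ∃ e ∈ tv, e.1 = (o k).2 ∧
    (sm e.1 (o (k - 1)).2 ∈ e.2.1 ∧ al (sm e.1 (o (k - 1)).2) (sm e.1 (o k).1) e.2.2.2 = true) ∧
    (sm e.1 (o (k + 1)).2 ∈ e.2.1 ∧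
      al (sm e.1 (o (k + 1)).2) (sm e.1 (o k).1) e.2.2.2 = true) := by
  have h := L.mv k
  rw [ov_tv, List.mem_map] at h
  obtain ⟨e, he, h1⟩ := h
  have hc := List.all_eq_true.1 tv_ok e he
  refine ⟨e, he, h1, ?_, ?_⟩
  · refine chkT_spec hc (L.mv (k - 1)) (L.mv (k + 1)) (L.mz k) ?_ ?_ ?_ ?_ <;> rw [h1]
    exacts [L.evm k, L.ev k, L.ep' k, L.okv k]
  · refine chkT_spec hc (L.mv (k + 1)) (L.mv (k - 1)) (L.mz k) ?_ ?_ ?_ ?_ <;> rw [h1]
    exacts [L.ev k, L.evm k, L.ep' k, L.okv' k]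

theorem any_of_mem {l : List ℕ} {f : ℕ → Bool} {x : ℕ} (hx : x ∈ l) (h : f x = true) :
    l.any f = true := List.any_eq_true.2 ⟨x, hx, h⟩

/-- every column is in the lists -/
theorem Loc.col (L : Loc o) (k : Fin 6) :
    (chC (o k) = true → ∃ x ∈ gc, x.1 = o k ∧ x.2.1 = sm (o k).1 (o k).2 ∧
      x.2.2.1 = sm (o k).2 (o k).1 ∧
      sm (o k).1 (o (k - 1)).1 ∈ x.2.2.2.1 ∧ sm (o k).1 (o (k + 1)).1 ∈ x.2.2.2.1 ∧
      sm (o k).2 (o (k - 1)).2 ∈ x.2.2.2.2 ∧ sm (o k).2 (o (k + 1)).2 ∈ x.2.2.2.2) ∧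
    (chC (o k) = false → o k ∈ gs) := by
  obtain ⟨e, he, h1, ⟨a1, a2⟩, ⟨a3, a4⟩⟩ := L.entz k
  obtain ⟨e', he', h1', ⟨b1, b2⟩, ⟨b3, b4⟩⟩ := L.entv k
  have h := List.all_eq_true.1 (List.all_eq_true.1 chk1_ok e he) e' he'
  have hk : (e.1, e'.1) = o k := by rw [h1, h1']
  have n0 : Nat.beq (sm e.1 e'.1) 0 = false := by
    rw [h1, h1']; exact sm_ne (L.ep k)
  have s1 : (o k).2 = e'.1 := h1'.symm
  have s2 : (o k).1 = e.1 := h1.symm
  rw [s1] at a2 a4
  rw [s2] at b2 b4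
  rw [n0, Bool.false_or, any_of_mem a1 a2, Bool.not_true, Bool.false_or, any_of_mem b1 b2,
    Bool.not_true, Bool.false_or, hk] at h
  constructor
  · intro hc
    rw [hc, cond_true, List.any_eq_true] at h
    obtain ⟨x, hx, hh⟩ := h
    simp only [Bool.and_eq_true] at hh
    obtain ⟨g1, g2, g3, g4, g5⟩ := hh
    have t1 : ∀ y ∈ e.2.1, al y (sm e.1 e'.1) e.2.2.2 = true → y ∈ x.2.2.2.1 := by
      intro y hy hal
      have := List.all_eq_true.1 g4 y hy
      rw [hal, Bool.not_true, Bool.false_or] at this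
      exact mem_iff.1 this
    have t2 : ∀ y ∈ e'.2.1, al y (sm e'.1 e.1) e'.2.2.2 = true → y ∈ x.2.2.2.2 := by
      intro y hy hal
      have := List.all_eq_true.1 g5 y hy
      rw [hal, Bool.not_true, Bool.false_or] at this
      exact mem_iff.1 this
    rw [s1, s2]
    exact ⟨x, hx, (beqC_iff.1 g1).symm ▸ rfl, (Nat.eq_of_beq_eq_true g2).symm,
      (Nat.eq_of_beq_eq_true g3).symm, t1 _ a1 a2, t1 _ a3 a4, t2 _ b1 b2, t2 _ b3 b4⟩
  · intro hc
    rw [hc, cond_false, List.any_eq_true] at h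
    obtain ⟨x, hx, hh⟩ := h
    rw [beqC_iff.1 hh]; exact hx

end Vale.Agent.P032.S5.H724.Tab
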