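import Vale.Agent.P032.S5.H724.TabB

/-!
# P032: adjacent changed columns
-/

namespace Vale.Agent.P032.S5.H724.Tab

variable {o : Fin 6 → Op × Op}

theorem Loc.nx_right (L : Loc o) (k : Fin 6) : nx (o (k - 1)) (o k) (o (k + 1)) = true := by
  unfold nx
  rw [sm_ne (L.ez k), sm_ne (L.ev k), L.okz k, L.okv k]
  rfl

theorem Loc.nx_left (L : Loc o) (k : Fin 6) : nx (o (k + 1)) (o k) (o (k - 1)) = true := by
  unfold nx
  rw [sm_ne (L.ezm k), sm_ne (L.evm k), L.okz' k, L.okv' k]
  rfl

theorem pa (k : Fin 6) : k + 1 - 1 = k := by revert k; decide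

/-- two adjacent changed columns, first list -/
theorem Loc.pc (L : Loc o) (k : Fin 6) (h : chC (o k) = true) (h' : chC (o (k + 1)) = true) :
    (o k, o (k + 1)) ∈ pc := by
  obtain ⟨x, hx, x1, x2, x3, x4, x5, x6, x7⟩ := (L.col k).1 h
  obtain ⟨y, hy, y1, y2, y3, y4, y5, y6, y7⟩ := (L.col (k + 1)).1 h'
  have hc := List.all_eq_true.1 (List.all_eq_true.1 chk2_ok x hx) y hy
  rw [pa] at y4 y6
  rw [x1, y1] at hc
  rw [mem_iff.2 y4, mem_iff.2 y6, mem_iff.2 x5, mem_iff.2 x7] at hc
  simp only [Bool.not_true, Bool.false_or] at hc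
  rw [List.any_eq_true] at hc
  obtain ⟨p, hp, hh⟩ := hc
  rw [Bool.and_eq_true, beqC_iff, beqC_iff] at hh
  have : p = (o k, o (k + 1)) := Prod.ext hh.1.symm hh.2.symm
  rwa [this] at hp

/-- two adjacent changed columns, final list -/
theorem Loc.v20 (L : Loc o) (k : Fin 6) (h : chC (o k) = true) (h' : chC (o (k + 1)) = true) :
    (o k, o (k + 1)) ∈ v20 := by
  have hp := L.pc k h h'
  have hc := List.all_eq_true.1 chk3_ok _ hp
  rw [Bool.or_eq_true] at hc
  rcases hc with hc | hc
  · rw [List.any_eq_true] at hc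
    obtain ⟨q, hq, hh⟩ := hc
    rw [Bool.and_eq_true, beqC_iff, beqC_iff] at hh
    have : q = (o k, o (k + 1)) := Prod.ext hh.1.symm hh.2.symm
    rwa [this] at hq
  · exfalso
    have r1 : ((gs.any fun b => nx (o k) (o (k + 1)) b) ||
        (Tab.pc.any fun q => beqC q.1 (o (k + 1)) && nx (o k) (o (k + 1)) q.2)) = true := by
      have hn := L.nx_right (k + 1)
      rw [pa] at hn
      by_cases h2 : chC (o (k + 1 + 1)) = true
      · have hp2 := L.pc (k + 1) h' h2
        rw [Bool.or_eq_true]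
        right
        refine List.any_eq_true.2 ⟨_, hp2, ?_⟩
        rw [Bool.and_eq_true]
        exact ⟨beqC_iff.2 rfl, hn⟩
      · rw [Bool.or_eq_true]
        left
        exact List.any_eq_true.2 ⟨_, (L.col (k + 1 + 1)).2 (by simpa using h2), hn⟩
    have r2 : ((gs.any fun b => nx (o (k + 1)) (o k) b) ||
        (Tab.pc.any fun q => beqC q.2 (o k) && nx (o (k + 1)) (o k) q.1)) = true := by
      have hn := L.nx_left k
      by_cases h2 : chC (o (k - 1)) = true
      · have hp2 := L.pc (k - 1) h2 (by rw [pm]; exact h)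
        rw [Bool.or_eq_true]
        right
        refine List.any_eq_true.2 ⟨_, hp2, ?_⟩
        rw [Bool.and_eq_true]
        refine ⟨beqC_iff.2 (by rw [pm]), hn⟩
      · rw [Bool.or_eq_true]
        left
        exact List.any_eq_true.2 ⟨_, (L.col (k - 1)).2 (by simpa using h2), hn⟩
    have hc' : (!((gs.any fun b => nx (o k) (o (k + 1)) b) ||
        (Tab.pc.any fun q => beqC q.1 (o (k + 1)) && nx (o k) (o (k + 1)) q.2)) ||
      !((gs.any fun b => nx (o (k + 1)) (o k) b) ||
        (Tab.pc.any fun q => beqC q.2 (o k) && nx (o (k + 1)) (o k) q.1))) = true := hc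
    rw [r1, r2] at hc'
    exact absurd hc' (by decide)

/-- an unchanged neighbour on the same circle gives no requirement -/
def chkS (ops : List Op) : Bool := ops.all fun p => ops.all fun q =>
  !(E p q) || (!(Nat.beq q.1 q.2.1) || Nat.beq (Nat.land (sm p q) 192) 0)

set_option maxRecDepth 100000 in
theorem chkS_z : chkS oz = true := by decide +kernel

set_option maxRecDepth 100000 in
theorem chkS_v : chkS ov = true := by decide +kernel

theorem chkS_spec {ops : List Op} (h : chkS ops = true) {p q : Op} (hp : p ∈ ops) (hq : q ∈ ops)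
    (he : E p q = true) (hs : q.1 = q.2.1) : Nat.land (sm p q) 192 = 0 := by
  have h1 := List.all_eq_true.1 (List.all_eq_true.1 h p hp) q hq
  rw [he, Bool.not_true, Bool.false_or, hs, Nat.beq_refl, Bool.not_true, Bool.false_or] at h1
  exact Nat.eq_of_beq_eq_true h1

theorem static_of {c : Op × Op} (h : chC c = false) : c.1.1 = c.1.2.1 ∧ c.2.1 = c.2.2.1 := by
  unfold chC at h
  rw [Bool.or_eq_false_iff, Bool.not_eq_false', Bool.not_eq_false'] at h
  exact ⟨Nat.eq_of_beq_eq_true h.1, Nat.eq_of_beq_eq_true h.2⟩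

theorem req_of {p : Op} {cen k1 k2 k3 : ℕ} (h : okT p cen k1 k2 k3 = true)
    (h1 : Nat.land k1 192 = 0) (h2 : Nat.land k2 192 = 0) :
    (Nat.beq p.1 p.2.1 || Nat.beq (Nat.land k3 192) 192) = true := by
  unfold okT at h
  rw [Bool.and_eq_true] at h
  have h3 := h.1
  have e : Nat.land (Nat.lor k1 (Nat.lor k2 k3)) 192 = Nat.land k3 192 := by
    have e1 : (k1 ||| (k2 ||| k3)) &&& 192 = (k1 &&& 192) ||| ((k2 &&& 192) ||| (k3 &&& 192)) := by
      rw [Nat.and_or_distrib_right, Nat.and_or_distrib_right]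
    have h1' : k1 &&& 192 = 0 := h1
    have h2' : k2 &&& 192 = 0 := h2
    have e2 : (k1 ||| (k2 ||| k3)) &&& 192 = k3 &&& 192 := by
      rw [e1, h1', h2', Nat.zero_or, Nat.zero_or]
    exact e2
  rwa [e] at h3

/-- a changed column has a changed neighbour -/
theorem Loc.not_alone (L : Loc o) (k : Fin 6) (h : chC (o k) = true) :
    chC (o (k + 1)) = true ∨ chC (o (k - 1)) = true := by
  by_contra hcon
  rw [not_or, Bool.not_eq_true, Bool.not_eq_true] at hcon
  obtain ⟨h1, h2⟩ := hcon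
  obtain ⟨a1, a2⟩ := static_of h1
  obtain ⟨b1, b2⟩ := static_of h2
  obtain ⟨x, hx, x1, x2, x3, -⟩ := (L.col k).1 h
  have hc := List.all_eq_true.1 chk4_ok x hx
  have r1 := req_of (L.okz k) (chkS_spec chkS_z (L.mz k) (L.mz _) (L.ezm k) b1)
    (chkS_spec chkS_z (L.mz k) (L.mz _) (L.ez k) a1)
  have r2 := req_of (L.okv k) (chkS_spec chkS_v (L.mv k) (L.mv _) (L.evm k) b2)
    (chkS_spec chkS_v (L.mv k) (L.mv _) (L.ev k) a2)
  rw [x1, x2, x3, r1, r2] at hc
  exact absurd hc (by decide)

end Vale.Agent.P032.S5.H724.Tab
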