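import Vale.Agent.P032.S5.H724.TabD

/-!
# P032: local rules and strong connectedness give the simultaneous changes of the list
-/

namespace Vale.Agent.P032.S5.H724.Tab

open Vale.Agent.P032.Words.Trie (zl vl nb op Lv FitW multi)

set_option maxRecDepth 100000 in
theorem chk5_ok : chk5 = true := by decide +kernel

set_option maxRecDepth 100000 in
theorem chk6_ok : chk6 = true := by decide +kernel

set_option maxRecDepth 100000 in
theorem chk7_ok : chk7 = true := by decide +kernel

set_option maxRecDepth 100000 in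
theorem chk8_ok : chk8 = true := by decide +kernel

/-- the words of a simultaneous change -/
structure Wds (o : Fin 6 → Op × Op) (H G : Fin 6 → ℕ) : Prop where
  loc : Loc o
  hz : ∀ k, jm (o k).1.1 (o k).2.1 = H k
  gz : ∀ k, jm (o k).1.2.1 (o k).2.2.1 = G k
  lt : ∀ k, H k < 10
  nbh : ∀ k, nb (H k) (H (k + 1)) = true
  o1 : ∀ k, op (H k) (H (k + 3)) = true
  o2 : ∀ k, op (G k) (G (k + 3)) = true
  o3 : ∀ k, op (H k) (G (k + 3)) = true
  o4 : ∀ k, op (G k) (H (k + 3)) = true
  cut : ∀ J : Fin 6 → Bool, (∃ k, J k = true ∧ chC (o k) = true) →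
    (∃ k, J k = false ∧ chC (o k) = true) →
    ∃ k, (J k = true ∧ J (k + 1) = false ∧ rq (H k) (G k) (H (k + 1)) (G (k + 1)) = true) ∨
      (J (k + 1) = true ∧ J k = false ∧ rq (H (k + 1)) (G (k + 1)) (H k) (G k) = true)

variable {o : Fin 6 → Op × Op} {H G : Fin 6 → ℕ}

theorem chk7_v {p : (Op × Op) × (Op × Op)} (hp : p ∈ v20) :
    (bef (st p.1) = jm p.1.1.1 p.1.2.1 ∧ aft (st p.1) = jm p.1.1.2.1 p.1.2.2.1 ∧
      cs (st p.1) = true) ∧
    (bef (st p.2) = jm p.2.1.1 p.2.2.1 ∧ aft (st p.2) = jm p.2.1.2.1 p.2.2.2.1 ∧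
      cs (st p.2) = true) := by
  have h := chk7_ok
  unfold chk7 at h
  rw [Bool.and_eq_true] at h
  have h1 := List.all_eq_true.1 h.1 p hp
  simp only [Bool.and_eq_true] at h1
  obtain ⟨a1, a2, a3, a4, a5, a6⟩ := h1
  have key : ∀ i, mem i [10, 11, 12, 13, 14, 15, 16, 17, 18, 19, 20, 21] = true → cs i = true := by
    intro i hi
    rw [mem_iff] at hi
    have : 10 ≤ i := by
      simp only [List.mem_cons, List.not_mem_nil, or_false] at hi
      omega
    exact Nat.ble_eq_true_of_le this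
  exact ⟨⟨Nat.eq_of_beq_eq_true a1, Nat.eq_of_beq_eq_true a2, key _ a5⟩,
    Nat.eq_of_beq_eq_true a3, Nat.eq_of_beq_eq_true a4, key _ a6⟩

theorem chk7_s {i : ℕ} (hi : i < 10) : bef i = i ∧ aft i = i := by
  have h := chk7_ok
  unfold chk7 at h
  rw [Bool.and_eq_true] at h
  have h1 := List.all_eq_true.1 h.2 i (List.mem_range.2 hi)
  rw [Bool.and_eq_true] at h1
  exact ⟨Nat.eq_of_beq_eq_true h1.1, Nat.eq_of_beq_eq_true h1.2⟩

theorem Wds.letters (W : Wds o H G) (k : Fin 6) :
    bef (st (o k)) = H k ∧ aft (st (o k)) = G k ∧ cs (st (o k)) = chC (o k) ∧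
    (chC (o k) = false → st (o k) = H k) := by
  by_cases hc : chC (o k) = true
  · have hv : (bef (st (o k)) = jm (o k).1.1 (o k).2.1 ∧
        aft (st (o k)) = jm (o k).1.2.1 (o k).2.2.1 ∧ cs (st (o k)) = true) := by
      rcases W.loc.not_alone k hc with h1 | h1
      · exact (chk7_v (W.loc.v20 k hc h1)).1
      · have := (chk7_v (W.loc.v20 (k - 1) h1 (by rw [pm]; exact hc))).2
        have e : ((o (k - 1), o (k - 1 + 1)) : (Op × Op) × (Op × Op)).2 = o k := by
          show o (k - 1 + 1) = o k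
          rw [pm]
        rw [e] at this
        exact this
    rw [W.hz, W.gz] at hv
    refine ⟨hv.1, hv.2.1, by rw [hc]; exact hv.2.2, fun h => ?_⟩
    rw [hc] at h
    exact absurd h (by decide)
  · have hc : chC (o k) = false := by simpa using hc
    have hs := static_of hc
    have e1 : st (o k) = H k := by
      unfold st
      rw [hc, cond_false]
      exact W.hz k
    have e2 : H k = G k := by
      rw [← W.hz, ← W.gz, hs.1, hs.2]
    have h7 := chk7_s (W.lt k)
    rw [e1, hc]
    refine ⟨h7.1, by rw [h7.2, e2], ?_, fun _ => rfl⟩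
    unfold cs
    have := W.lt k
    cases hb : Nat.ble 10 (H k) with
    | false => rfl
    | true =>
      have := Nat.le_of_ble_eq_true hb
      omega

theorem pa2 (k : Fin 6) : k + 1 - 1 = k := pa k

theorem Wds.adj (W : Wds o H G) (k : Fin 6) : mem (st (o (k + 1))) (adj (st (o k))) = true := by
  have h5 := chk5_ok
  unfold chk5 at h5
  by_cases hc : chC (o k) = true
  · by_cases hd : chC (o (k + 1)) = true
    · have := List.all_eq_true.1 h5 _ (W.loc.v20 k hc hd)
      rw [Bool.and_eq_true] at this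
      exact this.1
    · have hb := (W.loc.col (k + 1)).2 (by simpa using hd)
      rcases W.loc.not_alone k hc with h1 | h1
      · exact absurd h1 hd
      · have hv := W.loc.v20 (k - 1) h1 (by rw [pm]; exact hc)
        rw [pm] at hv
        have := List.all_eq_true.1 h5 _ hv
        rw [Bool.and_eq_true] at this
        have h2 := List.all_eq_true.1 this.2 _ hb
        rw [Bool.and_eq_true] at h2
        have h3 := h2.1
        have h4 : nx (o (k - 1)) (o k) (o (k + 1)) = true := W.loc.nx_right k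
        rw [show nx ((o (k - 1), o k) : (Op × Op) × (Op × Op)).1
          ((o (k - 1), o k) : (Op × Op) × (Op × Op)).2 (o (k + 1)) = true from h4,
          Bool.not_true, Bool.false_or] at h3
        exact h3
  · have hc' : chC (o k) = false := by simpa using hc
    by_cases hd : chC (o (k + 1)) = true
    · have hb := (W.loc.col k).2 hc'
      rcases W.loc.not_alone (k + 1) hd with h1 | h1
      · have hv := W.loc.v20 (k + 1) hd h1
        have := List.all_eq_true.1 h5 _ hv
        rw [Bool.and_eq_true] at this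
        have h2 := List.all_eq_true.1 this.2 _ hb
        rw [Bool.and_eq_true] at h2
        have h3 := h2.2
        have h4 : nx (o (k + 1 + 1)) (o (k + 1)) (o k) = true := by
          have := W.loc.nx_left (k + 1)
          rwa [pa] at this
        rw [show nx ((o (k + 1), o (k + 1 + 1)) : (Op × Op) × (Op × Op)).2
          ((o (k + 1), o (k + 1 + 1)) : (Op × Op) × (Op × Op)).1 (o k) = true from h4,
          Bool.not_true, Bool.false_or] at h3
        exact h3
      · rw [pa] at h1
        exact absurd h1 hc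
    · have hd' : chC (o (k + 1)) = false := by simpa using hd
      rw [(W.letters k).2.2.2 hc', (W.letters (k + 1)).2.2.2 hd']
      have h6 := chk6_ok
      unfold chk6 at h6
      have := List.all_eq_true.1 (List.all_eq_true.1 h6 _ (List.mem_range.2 (W.lt k))) _
        (List.mem_range.2 (W.lt (k + 1)))
      rw [W.nbh k, Bool.not_true, Bool.false_or] at this
      exact this

theorem Wds.an (W : Wds o H G) (k : Fin 6) : an (st (o k)) (st (o (k + 3))) = true := by
  unfold Tab.an
  rw [(W.letters k).1, (W.letters k).2.1, (W.letters (k + 3)).1, (W.letters (k + 3)).2.1,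
    W.o1 k, W.o2 k, W.o3 k, W.o4 k]
  rfl

theorem Wds.rs (W : Wds o H G) (i j : Fin 6) :
    rs (st (o i)) (st (o j)) = rq (H i) (G i) (H j) (G j) := by
  unfold Tab.rs
  rw [(W.letters i).1, (W.letters i).2.1, (W.letters j).1, (W.letters j).2.1]

theorem Wds.na (W : Wds o H G) (k : Fin 6) :
    notAl (st (o (k - 1))) (st (o k)) (st (o (k + 1))) = true := by
  unfold notAl
  rw [(W.letters k).2.2.1, (W.letters (k - 1)).2.2.1, (W.letters (k + 1)).2.2.1]
  by_cases hc : chC (o k) = true
  · rcases W.loc.not_alone k hc with h1 | h1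
    · rw [h1, Bool.or_true, Bool.or_true]
    · rw [h1, Bool.true_or, Bool.or_true]
  · have : chC (o k) = false := by simpa using hc
    rw [this]; rfl

/-- the meaning of `cutJ` -/
theorem cutJ_spec {A : Fin 6 → ℕ} {J : ℕ} (h : cutJ (A 0) (A 1) (A 2) (A 3) (A 4) (A 5) J = true) :
    (∃ j : Fin 6, bt J j = true ∧ cs (A j) = true) ∧
    (∃ j : Fin 6, bt J j = false ∧ cs (A j) = true) ∧
    ∀ j : Fin 6, ¬ (bt J j = true ∧ bt J (j + 1 : Fin 6) = false ∧ rs (A j) (A (j + 1)) = true) ∧
      ¬ (bt J (j + 1 : Fin 6) = true ∧ bt J j = false ∧ rs (A (j + 1)) (A j) = true) := by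
  unfold cutJ at h
  simp only [Bool.and_eq_true, Bool.or_eq_true, Bool.not_eq_true'] at h
  obtain ⟨⟨⟨⟨⟨⟨⟨⟨⟨⟨⟨⟨⟨h1, h2⟩, c01⟩, c10⟩, c12⟩, c21⟩, c23⟩, c32⟩, c34⟩, c43⟩, c45⟩, c54⟩, c50⟩,
    c05⟩ := h
  refine ⟨?_, ?_, ?_⟩
  · rcases h1 with ((((h | h) | h) | h) | h) | h
    exacts [⟨0, h⟩, ⟨1, h⟩, ⟨2, h⟩, ⟨3, h⟩, ⟨4, h⟩, ⟨5, h⟩]
  · rcases h2 with ((((h | h) | h) | h) | h) | h
    exacts [⟨0, h⟩, ⟨1, h⟩, ⟨2, h⟩, ⟨3, h⟩, ⟨4, h⟩, ⟨5, h⟩]
  · have key : ∀ {x y z : Bool}, (x && !y && z) = false → ¬ (x = true ∧ y = false ∧ z = true) := by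
      intro x y z hh
      rintro ⟨rfl, rfl, rfl⟩
      exact absurd hh (by decide)
    intro j
    fin_cases j
    · exact ⟨key c01, key c10⟩
    · exact ⟨key c12, key c21⟩
    · exact ⟨key c23, key c32⟩
    · exact ⟨key c34, key c43⟩
    · exact ⟨key c45, key c54⟩
    · exact ⟨key c50, key c05⟩

/-- **The simultaneous changes.** -/
theorem Wds.multi (W : Wds o H G) (hc : ∃ k, chC (o k) = true) :
    ∃ m ∈ Words.Trie.multi, fitB m [H 0, H 1, H 2, H 3, H 4, H 5] [G 0, G 1, G 2, G 3, G 4, G 5] = true := by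
  obtain ⟨k0, hk0⟩ := hc
  set A : Fin 6 → ℕ := fun j => st (o (k0 + j)) with hA
  have hadj : ∀ j : Fin 6, A (j + 1) ∈ Tab.adj (A j) := by
    intro j
    have := W.adj (k0 + j)
    rw [show k0 + j + 1 = k0 + (j + 1) from by rw [add_assoc]] at this
    exact mem_iff.1 this
  have han : ∀ j : Fin 6, Tab.an (A j) (A (j + 3)) = true := by
    intro j
    have := W.an (k0 + j)
    rwa [show k0 + j + 3 = k0 + (j + 3) from by rw [add_assoc]] at this
  have hna : ∀ j : Fin 6, notAl (A j) (A (j + 1)) (A (j + 1 + 1)) = true := by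
    intro j
    have := W.na (k0 + (j + 1))
    rw [show k0 + (j + 1) - 1 = k0 + j from by rw [← add_assoc]; exact pa _,
      show k0 + (j + 1) + 1 = k0 + (j + 1 + 1) from by rw [add_assoc]] at this
    exact this
  have hc0 : cs (A 0) = true := by
    have := (W.letters k0).2.2.1
    simp only [hA]
    rw [add_zero, this, hk0]
  have h0 : A 0 ∈ ([10, 11, 12, 13, 14, 15, 16, 17, 18, 19, 20, 21] : List ℕ) := by
    have h1 : 10 ≤ A 0 := Nat.le_of_ble_eq_true hc0
    have h2 : A 0 ∈ Tab.adj (A 5) := hadj 5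
    have h3 : ∀ i, ∀ x ∈ Tab.adj i, x < 22 := by
      intro i
      by_cases hi : i < 22
      · revert i
        decide
      · intro x hx
        have : Tab.adj i = [] := by
          unfold Tab.adj
          rw [List.getD_eq_getElem?_getD, List.getElem?_eq_none]
          · rfl
          · simp only [List.length_cons, List.length_nil]; omega
        rw [this] at hx
        exact absurd hx List.not_mem_nil
    have h4 := h3 _ _ h2
    simp only [List.mem_cons, List.not_mem_nil, or_false]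
    omega
  -- unroll the table
  have h8 := List.all_eq_true.1 chk8_ok _ h0
  have h8 := List.all_eq_true.1 h8 _ (hadj 0)
  have h8 := List.all_eq_true.1 h8 _ (hadj 1)
  have n0 : notAl (A 0) (A 1) (A 2) = true := hna 0
  have n1 : notAl (A 1) (A 2) (A 3) = true := hna 1
  have n2 : notAl (A 2) (A 3) (A 4) = true := hna 2
  have n3 : notAl (A 3) (A 4) (A 5) = true := hna 3
  have n4 : notAl (A 4) (A 5) (A 0) = true := hna 4
  have n5 : notAl (A 5) (A 0) (A 1) = true := hna 5
  have m0 : Tab.an (A 0) (A 3) = true := han 0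
  have m1 : Tab.an (A 1) (A 4) = true := han 1
  have m2 : Tab.an (A 2) (A 5) = true := han 2
  have a50 : mem (A 0) (Tab.adj (A 5)) = true := mem_iff.2 (hadj 5)
  have e1 : A (0 + 1) = A 1 := rfl
  have e2 : A (1 + 1) = A 2 := rfl
  rw [e1, e2, n0, Bool.not_true, Bool.false_or] at h8
  have h8 := List.all_eq_true.1 h8 _ (hadj 2)
  have e3 : A (2 + 1) = A 3 := rfl
  rw [e3, n1, m0, Bool.not_true, Bool.false_or, Bool.false_or] at h8
  have h8 := List.all_eq_true.1 h8 _ (hadj 3)
  have e4 : A (3 + 1) = A 4 := rfl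
  rw [e4, n2, m1, Bool.not_true, Bool.false_or, Bool.false_or] at h8
  have h8 := List.all_eq_true.1 h8 _ (hadj 4)
  have e5 : A (4 + 1) = A 5 := rfl
  rw [e5, n3, m2, a50, n4, n5, Bool.not_true, Bool.false_or, Bool.false_or, Bool.false_or,
    Bool.false_or, Bool.false_or, Bool.or_eq_true] at h8
  rcases h8 with h8 | h8
  · exfalso
    obtain ⟨J, -, hJ⟩ := List.any_eq_true.1 h8
    obtain ⟨⟨j, hj, hjc⟩, ⟨j', hj', hjc'⟩, hcr⟩ := cutJ_spec hJ
    have hb : ∀ j : Fin 6, k0 + j - k0 = j := fun j => by rw [add_sub_cancel_left]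
    obtain ⟨k, hk⟩ := W.cut (fun k => bt J ((k - k0 : Fin 6) : ℕ))
      ⟨k0 + j, by rw [hb]; exact hj, by rw [← (W.letters (k0 + j)).2.2.1]; exact hjc⟩
      ⟨k0 + j', by rw [hb]; exact hj', by rw [← (W.letters (k0 + j')).2.2.1]; exact hjc'⟩
    have ek : k0 + (k - k0) = k := by rw [add_sub_cancel]
    have ek1 : k0 + (k - k0 + 1) = k + 1 := by rw [← add_assoc, ek]
    have ek2 : k + 1 - k0 = k - k0 + 1 := by
      rw [← ek1, add_sub_cancel_left]
    obtain ⟨hc1, hc2⟩ := hcr (k - k0)
    have r1 : Tab.rs (A (k - k0)) (A (k - k0 + 1)) = rq (H k) (G k) (H (k + 1)) (G (k + 1)) := by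
      simp only [hA]
      rw [ek, ek1]
      exact W.rs k (k + 1)
    have r2 : Tab.rs (A (k - k0 + 1)) (A (k - k0)) = rq (H (k + 1)) (G (k + 1)) (H k) (G k) := by
      simp only [hA]
      rw [ek, ek1]
      exact W.rs (k + 1) k
    rw [r1] at hc1
    rw [r2] at hc2
    rcases hk with ⟨g1, g2, g3⟩ | ⟨g1, g2, g3⟩
    · rw [ek2] at g2
      exact hc1 ⟨g1, g2, g3⟩
    · rw [ek2] at g1
      exact hc2 ⟨g1, g2, g3⟩
  · unfold fin at h8
    simp only [Bool.and_eq_true] at h8
    obtain ⟨⟨⟨⟨⟨f0, f1⟩, f2⟩, f3⟩, f4⟩, f5⟩ := h8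
    have hbe : ∀ k, bef (st (o k)) = H k := fun k => (W.letters k).1
    have haf : ∀ k, aft (st (o k)) = G k := fun k => (W.letters k).2.1
    have hB : ∀ j, bef (A j) = H (k0 + j) := fun j => hbe _
    have hG : ∀ j, aft (A j) = G (k0 + j) := fun j => haf _
    rw [hB, hB, hB, hB, hB, hB, hG, hG, hG, hG, hG, hG] at f0 f1 f2 f3 f4 f5
    have fin' : ∀ {x y : List ℕ}, (Words.Trie.multi.any fun m => fitB m x y) = true →
        ∃ m ∈ Words.Trie.multi, fitB m x y = true := fun h => List.any_eq_true.1 h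
    clear_value A
    fin_cases k0
    · exact fin' f0
    · exact fin' f1
    · exact fin' f2
    · exact fin' f3
    · exact fin' f4
    · exact fin' f5

end Vale.Agent.P032.S5.H724.Tab
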